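import Mathlib

/-! P205 / Klein: definitions (complete; do not change). -/

namespace Vale.Agent.Lib.P205.Klein

open Real
open scoped ContDiff

/-- `e₁ ((s cos φ)')² + e₂ ((s sin φ)')²` -/
noncomputable def Nq (e₁ e₂ : ℝ) (s φ : ℝ → ℝ) (x : ℝ) : ℝ :=
  e₁ * (deriv s x * cos (φ x) - s x * deriv φ x * sin (φ x)) ^ 2
    + e₂ * (deriv s x * sin (φ x) + s x * deriv φ x * cos (φ x)) ^ 2

noncomputable def Rem (e₁ e₂ : ℝ) (s P φ : ℝ → ℝ) (x : ℝ) : ℝ := P x - Nq e₁ e₂ s φ x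

noncomputable def Lam (e₁ e₂ : ℝ) (s P φ : ℝ → ℝ) (x : ℝ) : ℝ :=
  sqrt (Rem e₁ e₂ s P φ x) / (s x * sin (φ x) * cos (φ x))

def Good (e₁ e₂ : ℝ) (s P φ : ℝ → ℝ) (x : ℝ) : Prop :=
  0 ≤ Rem e₁ e₂ s P φ x ∧ ContDiffAt ℝ ∞ (Lam e₁ e₂ s P φ) x ∧
    (sin (φ x) * cos (φ x) = 0 → Rem e₁ e₂ s P φ x = 0)

/-- smooth step: `0` for `c ≤ -1/2`, `1` for `c ≥ 1/2` -/
noncomputable def chi (c : ℝ) : ℝ := Real.smoothTransition (c + 1 / 2)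

noncomputable def cw (a x : ℝ) : ℝ := cos (2 * π * x / a)

/-- triangle wave: `a`-periodic, odd, equal to `x` on `[-a/4, a/4]` -/
noncomputable def tri (a x : ℝ) : ℝ := a / (2 * π) * arcsin (sin (2 * π * x / a))

noncomputable def phi (a : ℝ) (A B : ℝ → ℝ) (x : ℝ) : ℝ :=
  chi (cw a x) * A (tri a x) - (1 - chi (cw a x)) * B (tri a (x - a / 2))

noncomputable def mid (a cA cB : ℝ) (x : ℝ) : ℝ :=
  chi (cw a x) * cA + (1 - chi (cw a x)) * cB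

/-- two-weight Hopf type map -/
noncomputable def hopf2 (ρ₁ ρ₂ ψ₁ ψ₂ : ℝ → ℝ) (κ₁ κ₂ : ℝ) (p : ℝ × ℝ) : EuclideanSpace ℝ (Fin 4) :=
  !₂[ρ₁ p.1 * cos (κ₁ * p.2 + ψ₁ p.1), ρ₁ p.1 * sin (κ₁ * p.2 + ψ₁ p.1),
    ρ₂ p.1 * cos (κ₂ * p.2 + ψ₂ p.1), ρ₂ p.1 * sin (κ₂ * p.2 + ψ₂ p.1)]

end Vale.Agent.Lib.P205.Klein
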