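import Mathlib
import Vale.Agent.Lib.P205.Klein.Defs

/-! P205 / Klein, module KG: the global angle function `phi`.  FROZEN STATEMENTS, fill the sorries.
Facts on `tri a` (`a > 0`, `u = 2 π x / a`): `arcsin (sin u) = u - 2 π n` if `cos u > 0` for a suitable `n : ℤ`
(reduce `u` to `(-π/2, π/2)` mod `2π`; `Real.arcsin_sin`), so `tri a t = t - n a` for all `t` NEAR `x` (the set `cos > 0` is open and
`n` can be kept: on the open interval `|t - n a| < a / 4`).  `|tri a x| ≥ a/12 ⇔ |sin u| ≥ sin (π/6) = 1/2 ⇐ cos u ^ 2 ≤ 3/4`;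
sign of `tri a x` = sign of `sin u`.  `sin (2π (x - a/2)/a) = - sin u`, `cos (2π (x - a/2)/a) = - cos u`.
`chi c = 1` for `c ≥ 1/2` (`Real.smoothTransition.one_of_one_le`), `chi c = 0` for `c ≤ -1/2` (`zero_of_nonpos`), `0 ≤ chi ≤ 1`,
`chi` smooth (`Real.smoothTransition.contDiff`).
`phi_local`: cases `cw a x > 1/2` (first form), `cw a x < -1/2` (second form), else `cw a x ^ 2 < 3/4` on a neighbourhood and
`sin u ≠ 0` has a constant sign near `x` (third / fourth form, using the plateaus of `A`, `B` and oddness).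
`phi_contDiff`: from `phi_local` (`contDiff_iff_contDiffAt`, `ContDiffAt.congr_of_eventuallyEq`) and smoothness of `A`, `B`, `mid`. -/

namespace Vale.Agent.Lib.P205.Klein

open Real Filter Topology
open scoped ContDiff

private theorem chi_cw_contDiff (a : ℝ) : ContDiff ℝ ∞ (fun x => chi (cw a x)) := by
  unfold chi cw
  exact Real.smoothTransition.contDiff.comp (by fun_prop)

private theorem chi_nonneg (c : ℝ) : 0 ≤ chi c := Real.smoothTransition.nonneg _

private theorem chi_le_one (c : ℝ) : chi c ≤ 1 := Real.smoothTransition.le_one _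

private theorem conv_pos (c u v : ℝ) (h0 : 0 ≤ c) (h1 : c ≤ 1) (hu : 0 < u) (hv : 0 < v) :
    0 < c * u + (1 - c) * v := by
  rcases le_total c (1 / 2) with h | h
  · have : 0 ≤ c * u := mul_nonneg h0 hu.le
    nlinarith
  · have : 0 ≤ (1 - c) * v := mul_nonneg (by linarith) hv.le
    nlinarith

theorem mid_contDiff (a cA cB : ℝ) : ContDiff ℝ ∞ (mid a cA cB) := by
  have h := chi_cw_contDiff a
  unfold mid
  exact (h.mul contDiff_const).add ((contDiff_const.sub h).mul contDiff_const)

theorem mid_pos (a cA cB : ℝ) (hA : 0 < cA) (hB : 0 < cB) (x : ℝ) : 0 < mid a cA cB x := by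
  unfold mid
  exact conv_pos _ _ _ (chi_nonneg _) (chi_le_one _) hA hB

theorem mid_lt (a cA cB : ℝ) (hA : cA < π / 2) (hB : cB < π / 2) (x : ℝ) :
    mid a cA cB x < π / 2 := by
  unfold mid
  have := conv_pos (chi (cw a x)) (π / 2 - cA) (π / 2 - cB) (chi_nonneg _) (chi_le_one _)
    (by linarith) (by linarith)
  nlinarith

private theorem cw_add_kg (a : ℝ) (ha : 0 < a) (x : ℝ) : cw a (x + a) = cw a x := by
  unfold cw
  have : 2 * π * (x + a) / a = 2 * π * x / a + 2 * π := by
    field_simp
  rw [this, Real.cos_add_two_pi]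

/-- the slope of `mid` is bounded independently of the plateau values -/
theorem exists_mid_bound (a : ℝ) (ha : 0 < a) :
    ∃ C : ℝ, 0 ≤ C ∧ ∀ cA cB : ℝ, 0 < cA → cA < π / 2 → 0 < cB → cB < π / 2 →
      ∀ x, deriv (mid a cA cB) x ^ 2 ≤ C := by
  set g : ℝ → ℝ := fun x => chi (cw a x) with hg
  have hgs : ContDiff ℝ ∞ g := chi_cw_contDiff a
  have hgd : Differentiable ℝ g := hgs.differentiable (by simp)
  have hcont : Continuous (deriv g) := hgs.continuous_deriv (by simp)
  have hper : Function.Periodic (deriv g) a := by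
    intro x
    have h1 : (fun y => g (y + a)) = g := by
      funext y
      simp only [hg]
      rw [cw_add_kg a ha]
    have h2 : deriv (fun y => g (y + a)) x = deriv g (x + a) := deriv_comp_add_const g a x
    rw [← h2, h1]
  have hb := hper.isBounded_of_continuous ha.ne' hcont
  obtain ⟨M, hM⟩ := hb.exists_norm_le
  have hM' : ∀ x, |deriv g x| ≤ M := fun x => by
    have := hM (deriv g x) ⟨x, rfl⟩
    simpa [Real.norm_eq_abs] using this
  have hM0 : 0 ≤ M := (abs_nonneg _).trans (hM' 0)
  refine ⟨(π / 2 * M) ^ 2, by positivity, ?_⟩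
  intro cA cB hA0 hA1 hB0 hB1 x
  have hd : deriv (mid a cA cB) x = (cA - cB) * deriv g x := by
    have e : mid a cA cB = fun x => (cA - cB) * g x + cB := by
      funext y
      simp only [mid, hg]
      ring
    rw [e]
    rw [deriv_add_const, deriv_const_mul _ (hgd x)]
  rw [hd]
  have h1 : |cA - cB| ≤ π / 2 := by
    rw [abs_le]
    constructor <;> linarith
  have h2 : |(cA - cB) * deriv g x| ≤ π / 2 * M := by
    rw [abs_mul]
    exact mul_le_mul h1 (hM' x) (abs_nonneg _) (by positivity)
  calc ((cA - cB) * deriv g x) ^ 2 = |(cA - cB) * deriv g x| ^ 2 := (sq_abs _).symm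
    _ ≤ (π / 2 * M) ^ 2 := by
      exact pow_le_pow_left₀ (abs_nonneg _) h2 2

private theorem tri_neg (a t : ℝ) : tri a (-t) = - tri a t := by
  unfold tri
  have e : 2 * π * (-t) / a = -(2 * π * t / a) := by ring
  rw [e, Real.sin_neg, Real.arcsin_neg]
  ring

private theorem tri_add_period (a : ℝ) (ha : 0 < a) (t : ℝ) : tri a (t + a) = tri a t := by
  unfold tri
  have e : 2 * π * (t + a) / a = 2 * π * t / a + 2 * π := by field_simp
  rw [e, Real.sin_add_two_pi]

private theorem cw_neg (a t : ℝ) : cw a (-t) = cw a t := by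
  unfold cw
  have e : 2 * π * (-t) / a = -(2 * π * t / a) := by ring
  rw [e, Real.cos_neg]

private theorem cw_add_period (a : ℝ) (ha : 0 < a) (t : ℝ) : cw a (t + a) = cw a t := by
  unfold cw
  have e : 2 * π * (t + a) / a = 2 * π * t / a + 2 * π := by field_simp
  rw [e, Real.cos_add_two_pi]

theorem phi_odd (a : ℝ) (ha : 0 < a) (A B : ℝ → ℝ) (hA : ∀ x, A (-x) = - A x)
    (hB : ∀ x, B (-x) = - B x) (x : ℝ) : phi a A B (-x) = - phi a A B x := by
  unfold phi
  have e1 : -x - a / 2 = -((x - a / 2) + a) := by ring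
  rw [cw_neg, tri_neg, e1, tri_neg, tri_add_period a ha, hA, hB]
  ring

theorem phi_periodic (a : ℝ) (ha : 0 < a) (A B : ℝ → ℝ) (x : ℝ) :
    phi a A B (x + a) = phi a A B x := by
  unfold phi
  have e1 : x + a - a / 2 = (x - a / 2) + a := by ring
  rw [cw_add_period a ha, tri_add_period a ha, e1, tri_add_period a ha]

private theorem tri_shift (a : ℝ) (ha : 0 < a) (t : ℝ) : tri a (t - a / 2) = - tri a t := by
  unfold tri
  have e : 2 * π * (t - a / 2) / a = 2 * π * t / a - π := by field_simp
  rw [e, Real.sin_sub_pi, Real.arcsin_neg]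
  ring

private theorem tri_local (a : ℝ) (ha : 0 < a) (x : ℝ) (hx : 0 < cos (2 * π * x / a)) :
    ∃ n : ℤ, ∀ᶠ t in 𝓝 x, tri a t = t - n * a := by
  refine ⟨round (x / a), ?_⟩
  have hr : |x / a - round (x / a)| ≤ 1 / 2 := abs_sub_round (x / a)
  have hv : |2 * π * x / a - round (x / a) * (2 * π)| ≤ π := by
    have e : 2 * π * x / a - round (x / a) * (2 * π) = 2 * π * (x / a - round (x / a)) := by ring
    rw [e, abs_mul, abs_of_pos (by positivity : (0 : ℝ) < 2 * π)]
    nlinarith [Real.pi_pos]
  have hcos : 0 < cos (2 * π * x / a - round (x / a) * (2 * π)) := by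
    rw [Real.cos_sub_int_mul_two_pi]; exact hx
  obtain ⟨h1, h2⟩ := abs_le.mp hv
  have hlt1 : -(π / 2) < 2 * π * x / a - round (x / a) * (2 * π) := by
    by_contra hcon
    rw [not_lt] at hcon
    have : cos (2 * π * x / a - round (x / a) * (2 * π)) ≤ 0 := by
      rw [← Real.cos_neg]
      exact Real.cos_nonpos_of_pi_div_two_le_of_le (by linarith) (by linarith [Real.pi_pos])
    linarith
  have hlt2 : 2 * π * x / a - round (x / a) * (2 * π) < π / 2 := by
    by_contra hcon
    rw [not_lt] at hcon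
    have : cos (2 * π * x / a - round (x / a) * (2 * π)) ≤ 0 :=
      Real.cos_nonpos_of_pi_div_two_le_of_le hcon (by linarith [Real.pi_pos])
    linarith
  have hcont : Continuous (fun t : ℝ => 2 * π * t / a - round (x / a) * (2 * π)) := by fun_prop
  have ev1 : ∀ᶠ t in 𝓝 x, -(π / 2) < 2 * π * t / a - round (x / a) * (2 * π) :=
    (hcont.tendsto x).eventually_const_lt hlt1
  have ev2 : ∀ᶠ t in 𝓝 x, 2 * π * t / a - round (x / a) * (2 * π) < π / 2 :=
    (hcont.tendsto x).eventually_lt_const hlt2
  filter_upwards [ev1, ev2] with t h3 h4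
  unfold tri
  have e : sin (2 * π * t / a) = sin (2 * π * t / a - round (x / a) * (2 * π)) :=
    (Real.sin_sub_int_mul_two_pi _ _).symm
  rw [e, Real.arcsin_sin h3.le h4.le]
  field_simp

private theorem tri_ge (a : ℝ) (ha : 0 < a) (t : ℝ) (ht : 1 / 2 ≤ sin (2 * π * t / a)) :
    a / 12 ≤ tri a t := by
  have h5 : π / 6 ≤ arcsin (sin (2 * π * t / a)) := by
    rw [Real.le_arcsin_iff_sin_le ⟨by linarith [Real.pi_pos], by linarith [Real.pi_pos]⟩
      ⟨Real.neg_one_le_sin _, Real.sin_le_one _⟩, Real.sin_pi_div_six]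
    exact ht
  unfold tri
  have h6 : a / 12 = a / (2 * π) * (π / 6) := by field_simp; ring
  rw [h6]
  exact mul_le_mul_of_nonneg_left h5 (by positivity)

theorem phi_local (a : ℝ) (ha : 0 < a) (A B : ℝ → ℝ) (cA cB : ℝ)
    (hA : ∀ x, A (-x) = - A x) (hB : ∀ x, B (-x) = - B x)
    (hAc : ∀ x, a / 12 ≤ x → A x = cA) (hBc : ∀ x, a / 12 ≤ x → B x = cB) (x : ℝ) :
    (∃ n : ℤ, phi a A B =ᶠ[𝓝 x] fun t => A (t - n * a)) ∨
    (∃ n : ℤ, phi a A B =ᶠ[𝓝 x] fun t => - B (t - (a / 2 + n * a))) ∨
    (phi a A B =ᶠ[𝓝 x] mid a cA cB) ∨ (phi a A B =ᶠ[𝓝 x] fun t => - mid a cA cB t) := by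
  have hcw : Continuous (cw a) := by unfold cw; fun_prop
  have hsinc : Continuous (fun t : ℝ => sin (2 * π * t / a)) := by fun_prop
  have hcwx : cw a x = cos (2 * π * x / a) := rfl
  by_cases h1 : 1 / 2 < cw a x
  · left
    obtain ⟨n, hn⟩ := tri_local a ha x (by linarith)
    refine ⟨n, ?_⟩
    have ev : ∀ᶠ t in 𝓝 x, 1 / 2 < cw a t := (hcw.tendsto x).eventually_const_lt h1
    filter_upwards [hn, ev] with t ht1 ht2
    unfold phi
    have hchi : chi (cw a t) = 1 := by
      unfold chi; exact Real.smoothTransition.one_of_one_le (by linarith)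
    rw [hchi, ht1]
    ring
  · by_cases h2 : cw a x < -(1 / 2)
    · right; left
      have hc : 0 < cos (2 * π * (x - a / 2) / a) := by
        have e : 2 * π * (x - a / 2) / a = 2 * π * x / a - π := by field_simp
        rw [e, Real.cos_sub_pi]
        linarith
      obtain ⟨n, hn⟩ := tri_local a ha (x - a / 2) hc
      refine ⟨n, ?_⟩
      have hn' : ∀ᶠ t in 𝓝 x, tri a (t - a / 2) = (t - a / 2) - n * a := by
        have hct : Tendsto (fun t : ℝ => t - a / 2) (𝓝 x) (𝓝 (x - a / 2)) :=
          (continuous_id.sub continuous_const).tendsto x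
        exact hct.eventually hn
      have ev : ∀ᶠ t in 𝓝 x, cw a t < -(1 / 2) := (hcw.tendsto x).eventually_lt_const h2
      filter_upwards [hn', ev] with t ht1 ht2
      unfold phi
      have hchi : chi (cw a t) = 0 := by
        unfold chi; exact Real.smoothTransition.zero_of_nonpos (by linarith)
      rw [hchi, ht1]
      have e : t - a / 2 - n * a = t - (a / 2 + n * a) := by ring
      rw [e]
      ring
    · right; right
      rw [not_lt] at h1 h2
      have hs2 : 3 / 4 ≤ sin (2 * π * x / a) ^ 2 := by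
        have h3 := Real.sin_sq_add_cos_sq (2 * π * x / a)
        have hc : cos (2 * π * x / a) ^ 2 ≤ 1 / 4 := by
          rw [← hcwx]; nlinarith
        linarith
      have key_pos : ∀ t, 1 / 2 < sin (2 * π * t / a) → phi a A B t = mid a cA cB t := by
        intro t ht
        have hy := tri_ge a ha t ht.le
        unfold phi mid
        rw [tri_shift a ha, hB, hAc _ hy, hBc _ hy]
        ring
      have key_neg : ∀ t, sin (2 * π * t / a) < -(1 / 2) → phi a A B t = - mid a cA cB t := by
        intro t ht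
        have hs : 1 / 2 ≤ sin (2 * π * (t - a / 2) / a) := by
          have e : 2 * π * (t - a / 2) / a = 2 * π * t / a - π := by field_simp
          rw [e, Real.sin_sub_pi]
          linarith
        have hy := tri_ge a ha (t - a / 2) hs
        have e2 : tri a t = - tri a (t - a / 2) := by rw [tri_shift a ha]; ring
        unfold phi mid
        rw [e2, hA, hAc _ hy, hBc _ hy]
        ring
      by_cases h3 : 1 / 2 < sin (2 * π * x / a)
      · left
        have ev := (hsinc.tendsto x).eventually_const_lt h3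
        filter_upwards [ev] with t ht using key_pos t ht
      · right
        have h4 : sin (2 * π * x / a) < -(1 / 2) := by
          by_contra hcon
          rw [not_lt] at hcon h3
          nlinarith
        have ev := (hsinc.tendsto x).eventually_lt_const h4
        filter_upwards [ev] with t ht using key_neg t ht

theorem phi_contDiff (a : ℝ) (ha : 0 < a) (A B : ℝ → ℝ) (cA cB : ℝ)
    (sA : ContDiff ℝ ∞ A) (sB : ContDiff ℝ ∞ B)
    (hA : ∀ x, A (-x) = - A x) (hB : ∀ x, B (-x) = - B x)
    (hAc : ∀ x, a / 12 ≤ x → A x = cA) (hBc : ∀ x, a / 12 ≤ x → B x = cB) :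
    ContDiff ℝ ∞ (phi a A B) := by
  rw [contDiff_iff_contDiffAt]
  intro x
  rcases phi_local a ha A B cA cB hA hB hAc hBc x with ⟨n, h⟩ | ⟨n, h⟩ | h | h
  · exact ContDiffAt.congr_of_eventuallyEq
      (sA.comp (contDiff_id.sub contDiff_const)).contDiffAt h
  · exact ContDiffAt.congr_of_eventuallyEq
      (sB.comp (contDiff_id.sub contDiff_const)).neg.contDiffAt h
  · exact ContDiffAt.congr_of_eventuallyEq (mid_contDiff a cA cB).contDiffAt h
  · exact ContDiffAt.congr_of_eventuallyEq (mid_contDiff a cA cB).neg.contDiffAt h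

end Vale.Agent.Lib.P205.Klein
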