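import Mathlib
import Vale.Agent.Lib.P205.Klein.Defs

/-! P205 / Klein, module KP: the slope field `PhiP`.  FROZEN STATEMENTS, fill the sorries.
`PhiP_root`: `disc = a1² - a2 a0 > a1² ≥ 0` since `a2 > 0 > a0`; `sqrt disc > |a1|`; `Real.sq_sqrt`, `field_simp`, `ring/nlinarith`.
`rem_formula`: expand; use the root equation `a2 Φ² + 2 a1 Φ + a0 = 0` (`linear_combination`), `sin² + cos² = 1` is NOT needed.
`PhiP_field`: smoothness: `sqrt` of a positive smooth function (`ContDiff.sqrt`), division by `a2 ≠ 0`; `deriv s` is smooth (`ContDiff.iterate_deriv` / `contDiff_infty_iff_deriv`).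
Bounds: a continuous function on `ℝ × ℝ` that is `a`-periodic in `x` and `2π`-periodic in `y` is bounded (compact `Icc 0 a ×ˢ Icc 0 (2π)`);
apply it to `Φ` and to `∂Φ/∂y`; Lipschitz by the mean value inequality (`Convex.norm_image_sub_le_of_norm_deriv_le`).
`exists_nu`: e.g. `ν x = Real.smoothTransition (9 * x ^ 2 / τ ^ 2 * (1/3) - 1/3)`: `x² ≤ τ²/9 → arg ≤ 0`, `x² ≥ 4τ²/9 → arg ≥ 1`. -/

namespace Vale.Agent.Lib.P205.Klein

open Real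
open scoped ContDiff

noncomputable def a2 (e₁ e₂ σ y : ℝ) : ℝ := σ ^ 2 * (e₁ * sin y ^ 2 + e₂ * cos y ^ 2)
noncomputable def a1 (e₁ e₂ σ σ' y : ℝ) : ℝ := σ * σ' * sin y * cos y * (e₂ - e₁)
noncomputable def a0 (e₁ e₂ σ' p y : ℝ) : ℝ := σ' ^ 2 * (e₁ * cos y ^ 2 + e₂ * sin y ^ 2) - p
noncomputable def PhiP (e₁ e₂ σ σ' p y : ℝ) : ℝ :=
  (-(a1 e₁ e₂ σ σ' y) + sqrt (a1 e₁ e₂ σ σ' y ^ 2 - a2 e₁ e₂ σ y * a0 e₁ e₂ σ' p y)) / a2 e₁ e₂ σ y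

theorem a2_pos (e₁ e₂ σ y : ℝ) (he₁ : 0 < e₁) (he₂ : 0 < e₂) (hσ : 0 < σ) : 0 < a2 e₁ e₂ σ y := by
  unfold a2
  have hs := sin_sq_add_cos_sq y
  have hs0 : 0 ≤ sin y ^ 2 := sq_nonneg _
  have hc0 : 0 ≤ cos y ^ 2 := sq_nonneg _
  have hm : 0 < min e₁ e₂ := lt_min he₁ he₂
  have h1 := mul_nonneg (sub_nonneg.2 (min_le_left e₁ e₂)) hs0
  have h2 := mul_nonneg (sub_nonneg.2 (min_le_right e₁ e₂)) hc0
  have h3 : 0 < e₁ * sin y ^ 2 + e₂ * cos y ^ 2 := by nlinarith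
  positivity

theorem a0_neg (e₁ e₂ e σ' p y : ℝ) (he₁ : 0 < e₁) (he₂ : 0 < e₂) (he₁' : e₁ ≤ e) (he₂' : e₂ ≤ e)
    (h : e * σ' ^ 2 < p) : a0 e₁ e₂ σ' p y < 0 := by
  unfold a0
  have hs := sin_sq_add_cos_sq y
  have hs0 : 0 ≤ sin y ^ 2 := sq_nonneg _
  have hc0 : 0 ≤ cos y ^ 2 := sq_nonneg _
  have h1 := mul_nonneg (sub_nonneg.2 he₁') hc0
  have h2 := mul_nonneg (sub_nonneg.2 he₂') hs0
  have h3 : e₁ * cos y ^ 2 + e₂ * sin y ^ 2 ≤ e := by nlinarith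
  have h4 : σ' ^ 2 * (e₁ * cos y ^ 2 + e₂ * sin y ^ 2) ≤ σ' ^ 2 * e :=
    mul_le_mul_of_nonneg_left h3 (sq_nonneg _)
  linarith

theorem PhiP_root (e₁ e₂ σ σ' p y : ℝ) (h2 : 0 < a2 e₁ e₂ σ y) (h0 : a0 e₁ e₂ σ' p y < 0) :
    a2 e₁ e₂ σ y * PhiP e₁ e₂ σ σ' p y ^ 2 + 2 * a1 e₁ e₂ σ σ' y * PhiP e₁ e₂ σ σ' p y
      + a0 e₁ e₂ σ' p y = 0 ∧ 0 < PhiP e₁ e₂ σ σ' p y := by
  unfold PhiP
  generalize a2 e₁ e₂ σ y = A at *
  generalize a1 e₁ e₂ σ σ' y = B at *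
  generalize a0 e₁ e₂ σ' p y = C at *
  have hAC : 0 < -(A * C) := by nlinarith
  have hD : B ^ 2 < B ^ 2 - A * C := by linarith
  have hD0 : 0 ≤ B ^ 2 - A * C := by nlinarith [sq_nonneg B]
  have hS := Real.sq_sqrt hD0
  have hSB : |B| < sqrt (B ^ 2 - A * C) := by
    rw [Real.lt_sqrt (abs_nonneg B), sq_abs]
    exact hD
  have hB : B < sqrt (B ^ 2 - A * C) := lt_of_le_of_lt (le_abs_self B) hSB
  generalize sqrt (B ^ 2 - A * C) = S at *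
  constructor
  · have hA : A ≠ 0 := h2.ne'
    field_simp
    nlinarith
  · apply div_pos _ h2
    linarith

theorem rem_formula (e₁ e₂ σ σ' p y θ Φ : ℝ)
    (hroot : a2 e₁ e₂ σ y * Φ ^ 2 + 2 * a1 e₁ e₂ σ σ' y * Φ + a0 e₁ e₂ σ' p y = 0) :
    p - (e₁ * (σ' * cos y - σ * (θ * Φ) * sin y) ^ 2 + e₂ * (σ' * sin y + σ * (θ * Φ) * cos y) ^ 2)
      = (1 - θ) * (-(a0 e₁ e₂ σ' p y) + θ * (a2 e₁ e₂ σ y * Φ ^ 2)) := by
  unfold a2 a1 a0 at *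
  linear_combination (-θ) * hroot

private theorem bdd_of_periodic (G : ℝ × ℝ → ℝ) (hG : Continuous G) (a b : ℝ) (ha : 0 < a) (hb : 0 < b)
    (h1 : ∀ x y, G (x + a, y) = G (x, y)) (h2 : ∀ x y, G (x, y + b) = G (x, y)) :
    ∃ L : ℝ, 0 < L ∧ ∀ x y, |G (x, y)| ≤ L := by
  have hK : IsCompact (Set.Icc (0:ℝ) a ×ˢ Set.Icc (0:ℝ) b) := isCompact_Icc.prod isCompact_Icc
  obtain ⟨C, hC⟩ := hK.exists_bound_of_continuousOn hG.continuousOn
  refine ⟨max C 1, lt_max_of_lt_right one_pos, fun x y => ?_⟩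
  obtain ⟨x0, hx0, e1⟩ := (show Function.Periodic (fun x => G (x, y)) a from
    fun x => h1 x y).exists_mem_Ico₀ ha x
  obtain ⟨y0, hy0, e2⟩ := (show Function.Periodic (fun y => G (x0, y)) b from
    fun y => h2 x0 y).exists_mem_Ico₀ hb y
  have h3 := hC (x0, y0) ⟨⟨hx0.1, hx0.2.le⟩, ⟨hy0.1, hy0.2.le⟩⟩
  have e1' : G (x, y) = G (x0, y) := e1
  have e2' : G (x0, y) = G (x0, y0) := e2
  rw [e1', e2']
  rw [Real.norm_eq_abs] at h3
  exact h3.trans (le_max_left _ _)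

theorem PhiP_field (a : ℝ) (ha : 0 < a) (s P : ℝ → ℝ) (hs : ContDiff ℝ ∞ s) (hP : ContDiff ℝ ∞ P)
    (hspos : ∀ x, 0 < s x) (hse : ∀ x, s (-x) = s x) (hPe : ∀ x, P (-x) = P x)
    (hsp : ∀ x, s (x + a) = s x) (hPp : ∀ x, P (x + a) = P x)
    (e₁ e₂ e : ℝ) (he₁ : 0 < e₁) (he₂ : 0 < e₂) (he₁' : e₁ ≤ e) (he₂' : e₂ ≤ e)
    (hsmall : ∀ x, e * deriv s x ^ 2 < P x) :
    ContDiff ℝ ∞ (fun q : ℝ × ℝ => PhiP e₁ e₂ (s q.1) (deriv s q.1) (P q.1) q.2) ∧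
    (∃ L : ℝ, 0 < L ∧ ∀ x y, |PhiP e₁ e₂ (s x) (deriv s x) (P x) y| ≤ L) ∧
    (∃ K : ℝ, 0 ≤ K ∧ ∀ x y y', |PhiP e₁ e₂ (s x) (deriv s x) (P x) y
        - PhiP e₁ e₂ (s x) (deriv s x) (P x) y'| ≤ K * |y - y'|) ∧
    (∀ x y, PhiP e₁ e₂ (s (-x)) (deriv s (-x)) (P (-x)) (-y)
        = PhiP e₁ e₂ (s x) (deriv s x) (P x) y) := by
  have hs' : ContDiff ℝ ∞ (deriv s) := (contDiff_infty_iff_deriv.1 hs).2
  have c1 : ContDiff ℝ ∞ (fun q : ℝ × ℝ => s q.1) := hs.comp contDiff_fst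
  have c2 : ContDiff ℝ ∞ (fun q : ℝ × ℝ => deriv s q.1) := hs'.comp contDiff_fst
  have c3 : ContDiff ℝ ∞ (fun q : ℝ × ℝ => P q.1) := hP.comp contDiff_fst
  have c4 : ContDiff ℝ ∞ (fun q : ℝ × ℝ => sin q.2) := contDiff_sin.comp contDiff_snd
  have c5 : ContDiff ℝ ∞ (fun q : ℝ × ℝ => cos q.2) := contDiff_cos.comp contDiff_snd
  have d2 : ContDiff ℝ ∞ (fun q : ℝ × ℝ => a2 e₁ e₂ (s q.1) q.2) := by
    unfold a2
    exact (c1.pow 2).mul ((contDiff_const.mul (c4.pow 2)).add (contDiff_const.mul (c5.pow 2)))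
  have d1 : ContDiff ℝ ∞ (fun q : ℝ × ℝ => a1 e₁ e₂ (s q.1) (deriv s q.1) q.2) := by
    unfold a1
    exact (((c1.mul c2).mul c4).mul c5).mul contDiff_const
  have d0 : ContDiff ℝ ∞ (fun q : ℝ × ℝ => a0 e₁ e₂ (deriv s q.1) (P q.1) q.2) := by
    unfold a0
    exact ((c2.pow 2).mul ((contDiff_const.mul (c5.pow 2)).add (contDiff_const.mul (c4.pow 2)))).sub c3
  have p2 : ∀ x y, 0 < a2 e₁ e₂ (s x) y := fun x y => a2_pos e₁ e₂ (s x) y he₁ he₂ (hspos x)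
  have p0 : ∀ x y, a0 e₁ e₂ (deriv s x) (P x) y < 0 := fun x y =>
    a0_neg e₁ e₂ e (deriv s x) (P x) y he₁ he₂ he₁' he₂' (hsmall x)
  have pd : ∀ x y, 0 < a1 e₁ e₂ (s x) (deriv s x) y ^ 2
      - a2 e₁ e₂ (s x) y * a0 e₁ e₂ (deriv s x) (P x) y := by
    intro x y
    have := mul_pos (p2 x y) (neg_pos.2 (p0 x y))
    nlinarith [sq_nonneg (a1 e₁ e₂ (s x) (deriv s x) y)]
  have hF : ContDiff ℝ ∞ (fun q : ℝ × ℝ => PhiP e₁ e₂ (s q.1) (deriv s q.1) (P q.1) q.2) := by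
    unfold PhiP
    refine ContDiff.div (d1.neg.add (ContDiff.sqrt ((d1.pow 2).sub (d2.mul d0)) ?_)) d2 ?_
    · intro q; exact (pd q.1 q.2).ne'
    · intro q; exact (p2 q.1 q.2).ne'
  have hds : ∀ x, deriv s (x + a) = deriv s x := by
    intro x
    have h1 : (fun x => s (x + a)) = s := funext hsp
    have h2 := deriv_comp_add_const s a x
    rw [h1] at h2
    exact h2.symm
  have hdo : ∀ x, deriv s (-x) = - deriv s x := by
    intro x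
    have h1 : (fun x => s (-x)) = s := funext hse
    have h2 := deriv_comp_neg s x
    rw [h1] at h2
    linarith
  obtain ⟨F, hFd⟩ : ∃ F : ℝ × ℝ → ℝ, ∀ q, F q = PhiP e₁ e₂ (s q.1) (deriv s q.1) (P q.1) q.2 :=
    ⟨_, fun _ => rfl⟩
  have hF' : ContDiff ℝ ∞ F := by
    have : F = fun q : ℝ × ℝ => PhiP e₁ e₂ (s q.1) (deriv s q.1) (P q.1) q.2 := funext hFd
    rw [this]; exact hF
  have per1 : ∀ x y, F (x + a, y) = F (x, y) := by
    intro x y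
    rw [hFd, hFd]
    simp only [hsp, hds, hPp]
  have per2 : ∀ x y, F (x, y + 2 * π) = F (x, y) := by
    intro x y
    rw [hFd, hFd]
    simp only [PhiP, a2, a1, a0, sin_add_two_pi, cos_add_two_pi]
  obtain ⟨L, hL, hLb⟩ := bdd_of_periodic F hF'.continuous a (2 * π) ha two_pi_pos per1 per2
  have hDc : Continuous (fun q : ℝ × ℝ => fderiv ℝ F q ((0 : ℝ), (1 : ℝ))) :=
    (hF'.continuous_fderiv (by simp)).clm_apply continuous_const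
  have perD1 : ∀ x y, fderiv ℝ F (x + a, y) ((0 : ℝ), (1 : ℝ)) = fderiv ℝ F (x, y) ((0 : ℝ), (1 : ℝ)) := by
    intro x y
    have h1 : (fun q : ℝ × ℝ => F (q + (a, 0))) = F := by
      funext q
      have : q + (a, (0 : ℝ)) = (q.1 + a, q.2) := by ext <;> simp
      rw [this, per1]
    have h2 := fderiv_comp_add_right (𝕜 := ℝ) (f := F) (x := (x, y)) (a, (0 : ℝ))
    rw [h1] at h2
    have h3 : ((x, y) : ℝ × ℝ) + (a, (0 : ℝ)) = (x + a, y) := by ext <;> simp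
    rw [h3] at h2
    rw [← h2]
  have perD2 : ∀ x y, fderiv ℝ F (x, y + 2 * π) ((0 : ℝ), (1 : ℝ))
      = fderiv ℝ F (x, y) ((0 : ℝ), (1 : ℝ)) := by
    intro x y
    have h1 : (fun q : ℝ × ℝ => F (q + (0, 2 * π))) = F := by
      funext q
      have : q + ((0 : ℝ), 2 * π) = (q.1, q.2 + 2 * π) := by ext <;> simp
      rw [this, per2]
    have h2 := fderiv_comp_add_right (𝕜 := ℝ) (f := F) (x := (x, y)) ((0 : ℝ), 2 * π)
    rw [h1] at h2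
    have h3 : ((x, y) : ℝ × ℝ) + ((0 : ℝ), 2 * π) = (x, y + 2 * π) := by ext <;> simp
    rw [h3] at h2
    rw [← h2]
  obtain ⟨K, hK, hKb⟩ := bdd_of_periodic (fun q : ℝ × ℝ => fderiv ℝ F q ((0 : ℝ), (1 : ℝ))) hDc a (2 * π)
    ha two_pi_pos perD1 perD2
  refine ⟨hF, ⟨L, hL, fun x y => ?_⟩, ⟨K, hK.le, fun x y y' => ?_⟩, fun x y => ?_⟩
  · have := hLb x y
    rwa [hFd] at this
  · have hder : ∀ t ∈ (Set.univ : Set ℝ), HasDerivWithinAt (fun t => F (x, t))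
        (fderiv ℝ F (x, t) ((0 : ℝ), (1 : ℝ))) Set.univ t := by
      intro t _
      have h1 : HasFDerivAt F (fderiv ℝ F (x, t)) (x, t) :=
        ((hF'.differentiable (by simp)) (x, t)).hasFDerivAt
      have h2 : HasDerivAt (fun t : ℝ => ((x, t) : ℝ × ℝ)) ((0 : ℝ), (1 : ℝ)) t :=
        (hasDerivAt_const t x).prodMk (hasDerivAt_id t)
      exact (h1.comp_hasDerivAt t h2).hasDerivWithinAt
    have hmv := Convex.norm_image_sub_le_of_norm_hasDerivWithin_le hder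
      (fun t _ => by rw [Real.norm_eq_abs]; exact hKb x t) convex_univ (Set.mem_univ y') (Set.mem_univ y)
    rw [Real.norm_eq_abs, Real.norm_eq_abs, hFd, hFd] at hmv
    exact hmv
  · rw [hse, hPe, hdo]
    simp only [PhiP, a2, a1, a0, sin_neg, cos_neg]
    have e1 : s x * -deriv s x * -sin y * cos y * (e₂ - e₁) = s x * deriv s x * sin y * cos y * (e₂ - e₁) := by
      ring
    have e2 : (-sin y) ^ 2 = sin y ^ 2 := by ring
    have e3 : (-deriv s x) ^ 2 = deriv s x ^ 2 := by ring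
    rw [e1, e2, e3]

theorem exists_nu (τ : ℝ) (hτ : 0 < τ) :
    ∃ ν : ℝ → ℝ, ContDiff ℝ ∞ ν ∧ (∀ x, ν (-x) = ν x) ∧ (∀ x, 0 ≤ ν x) ∧ (∀ x, ν x ≤ 1) ∧
      (∀ x, |x| ≤ τ / 3 → ν x = 0) ∧ (∀ x, 2 * τ / 3 ≤ |x| → ν x = 1) := by
  have hτ2 : 0 < τ ^ 2 := by positivity
  refine ⟨fun x => Real.smoothTransition (3 * x ^ 2 / τ ^ 2 - 1 / 3), ?_, ?_, ?_, ?_, ?_, ?_⟩
  · apply Real.smoothTransition.contDiff.comp
    fun_prop
  · intro x
    simp only [neg_sq]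
  · intro x
    exact Real.smoothTransition.nonneg _
  · intro x
    exact Real.smoothTransition.le_one _
  · intro x hx
    apply Real.smoothTransition.zero_of_nonpos
    have h1 : x ^ 2 ≤ (τ / 3) ^ 2 := by
      rw [← sq_abs x]
      exact pow_le_pow_left₀ (abs_nonneg x) hx 2
    have h2 : 3 * x ^ 2 / τ ^ 2 ≤ 1 / 3 := by
      rw [div_le_iff₀ hτ2]
      nlinarith
    linarith
  · intro x hx
    apply Real.smoothTransition.one_of_one_le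
    have h1 : (2 * τ / 3) ^ 2 ≤ x ^ 2 := by
      rw [← sq_abs x]
      exact pow_le_pow_left₀ (by positivity) hx 2
    have h2 : 4 / 3 ≤ 3 * x ^ 2 / τ ^ 2 := by
      rw [le_div_iff₀ hτ2]
      nlinarith
    linarith

end Vale.Agent.Lib.P205.Klein
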