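import Mathlib
import Vale.Agent.Lib.P205.Klein.Defs
import Vale.Agent.Lib.P205.Klein.KinkParts

/-! P205 / Klein, module KK: the kink (ODE).  FROZEN STATEMENTS, fill the sorries.

`ode_global` (abstract).  ROUTE: Picard-Lindelof on `Icc (-(τ+1)) (τ+1)` with `t₀ = 0`, `x₀ = 0`, ball radius `L (τ+1)`, `r = 0`
(`IsPicardLindelof`, `IsPicardLindelof.exists_eq_forall_mem_Icc_hasDerivWithinAt₀`) gives `α`; on `Ioo` it has `HasDerivAt`.
For `τ ≤ |x| < τ+1` the derivative is `0`, so `α` is constant on `[τ, τ+1)` and on `(-(τ+1), -τ]`.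
`A x = α (max (-(τ + 1/2)) (min (τ + 1/2) x))`; `HasDerivAt A (V x (A x)) x` for all `x` (locally `A = α` or `A` is locally constant and `V = 0`).
Smoothness: `A` is `C^n` for all `n` by induction (`contDiff_succ_iff_deriv`, `deriv A = fun x => V x (A x)`), or
`ODE.contDiffOn_enat_Icc_of_hasDerivWithinAt`.  Oddness: `x ↦ - A (-x)` solves the same ODE with the same value at `0`:
`ODE_solution_unique_univ` (Lipschitz in `y`).

`exists_kink`.  With `σ = s x`, `σ' = deriv s x`, `p = P x`: `a2 = σ² (e₁ sin² y + e₂ cos² y) > 0`, `a1 = σ σ' sin y cos y (e₂ - e₁)`,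
`a0 = σ'² (e₁ cos² y + e₂ sin² y) - p < 0` (`hsmall`), `Φ x y = (-a1 + sqrt (a1² - a2 a0)) / a2 > 0` is the positive root of `a2 X² + 2 a1 X + a0 = 0`,
and `e₁ (σ' cos y - σ X sin y)² + e₂ (σ' sin y + σ X cos y)² = a2 X² + 2 a1 X + a0 + p`.  `Φ` is smooth in `(x, y)`, `a`-periodic in `x`, `2π`-periodic in `y`,
hence bounded by some `L > 0` and `∂Φ/∂y` is bounded (Lipschitz); `Φ (-x) (-y) = Φ x y`.
Take `τ = min T (π / (4 L))`, `ν` smooth, even, `0 ≤ ν ≤ 1`, `ν = 0` on `|x| ≤ τ/3`, `ν = 1` on `|x| ≥ 2τ/3` (e.g. `smoothTransition (3 x² / τ² ...)`),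
`V x y = (1 - ν x ^ 2) * Φ x y`, `A` from `ode_global`.  `A' ≥ 0`, `A' > 0` near `0`, so `0 < A x ≤ L τ < π/2` for `x > 0`, `A = c` for `x ≥ τ`.
With `θ = 1 - ν²`, `X = θ Φ`: `p - (a2 X² + 2 a1 X + a0 + p) = (1 - θ) (-a0 + θ a2 Φ²) = ν² q`, `q > 0` smooth.  So `Rem = ν² q ≥ 0`,
`sqrt Rem = ν sqrt q` is smooth, `Lam` is smooth at every `x ≠ 0` (`sin (A x) cos (A x) ≠ 0`), and near `0` `ν = 0`, `Rem = 0`, `Lam = 0`. -/

namespace Vale.Agent.Lib.P205.Klein

open Real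
open scoped ContDiff

section OdeGlobal

open Set
open scoped NNReal

private theorem ode_local (V : ℝ → ℝ → ℝ) (hV : ContDiff ℝ ∞ (fun p : ℝ × ℝ => V p.1 p.2)) (L K : ℝ)
    (hL : ∀ x y, |V x y| ≤ L) (hK : ∀ x y y', |V x y - V x y'| ≤ K * |y - y'|) (T : ℝ) (hT : 0 < T) :
    ∃ α : ℝ → ℝ, α 0 = 0 ∧ ∀ t ∈ Ioo (-T) T, HasDerivAt α (V t (α t)) t := by
  have hL0 : 0 ≤ L := le_trans (abs_nonneg _) (hL 0 0)
  have h0 : (0 : ℝ) ∈ Icc (-T) T := ⟨by linarith, hT.le⟩
  have hPL : IsPicardLindelof V (tmin := -T) (tmax := T) ⟨0, h0⟩ (0 : ℝ) (L * T).toNNReal 0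
      L.toNNReal K.toNNReal := by
    refine ⟨fun t _ => ?_, fun x _ => ?_, fun t _ x _ => ?_, ?_⟩
    · apply LipschitzWith.lipschitzOnWith
      apply LipschitzWith.of_dist_le_mul
      intro y y'
      rw [Real.dist_eq, Real.dist_eq]
      refine (hK t y y').trans ?_
      exact mul_le_mul_of_nonneg_right (Real.le_coe_toNNReal K) (abs_nonneg _)
    · have : Continuous (fun t : ℝ => V t x) :=
        hV.continuous.comp (continuous_id.prodMk continuous_const)
      exact this.continuousOn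
    · rw [Real.norm_eq_abs, Real.coe_toNNReal L hL0]
      exact hL t x
    · rw [Real.coe_toNNReal L hL0, Real.coe_toNNReal (L * T) (mul_nonneg hL0 hT.le)]
      simp
  obtain ⟨α, hα0, hα⟩ := hPL.exists_eq_forall_mem_Icc_hasDerivWithinAt₀
  refine ⟨α, hα0, fun t ht => ?_⟩
  exact (hα t ⟨ht.1.le, ht.2.le⟩).hasDerivAt (Icc_mem_nhds ht.1 ht.2)

private theorem ode_smooth (V : ℝ → ℝ → ℝ) (hV : ContDiff ℝ ∞ (fun p : ℝ × ℝ => V p.1 p.2))
    (A : ℝ → ℝ) (hA : ∀ x, HasDerivAt A (V x (A x)) x) : ContDiff ℝ ∞ A := by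
  have hd : deriv A = fun x => V x (A x) := funext fun x => (hA x).deriv
  have hdiff : Differentiable ℝ A := fun x => (hA x).differentiableAt
  have key : ∀ n : ℕ, ContDiff ℝ n A := by
    intro n
    induction n with
    | zero => exact contDiff_zero.2 hdiff.continuous
    | succ n ih =>
      have : ((n + 1 : ℕ) : WithTop ℕ∞) = (n : WithTop ℕ∞) + 1 := by push_cast; rfl
      rw [this, contDiff_succ_iff_deriv]
      refine ⟨hdiff, by simp, ?_⟩
      rw [hd]
      have h1 : ContDiff ℝ n (fun p : ℝ × ℝ => V p.1 p.2) := hV.of_le (by exact_mod_cast le_top)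
      exact h1.comp (contDiff_id.prodMk ih)
  exact contDiff_infty.2 key

theorem ode_global (V : ℝ → ℝ → ℝ) (hV : ContDiff ℝ ∞ (fun p : ℝ × ℝ => V p.1 p.2)) (L K τ : ℝ)
    (hL : ∀ x y, |V x y| ≤ L) (hK : ∀ x y y', |V x y - V x y'| ≤ K * |y - y'|)
    (hτ : ∀ x y, τ ≤ |x| → V x y = 0) (hsym : ∀ x y, V (-x) (-y) = V x y) :
    ∃ A : ℝ → ℝ, ContDiff ℝ ∞ A ∧ A 0 = 0 ∧ (∀ x, HasDerivAt A (V x (A x)) x) ∧
      ∀ x, A (-x) = - A x := by
  set τ' : ℝ := max τ 0 with hτ'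
  have hτ'0 : 0 ≤ τ' := le_max_right _ _
  have hτ'' : ∀ x y, τ' ≤ |x| → V x y = 0 := fun x y h => hτ x y ((le_max_left _ _).trans h)
  set T0 : ℝ := τ' + 1 / 2 with hT0
  obtain ⟨α, hα0, hα⟩ := ode_local V hV L K hL hK (τ' + 1) (by linarith)
  have hcont : ∀ x ∈ Ioo (-(τ' + 1)) (τ' + 1), ContinuousAt α x := fun x hx => (hα x hx).continuousAt
  have hR : ∀ x ∈ Icc τ' T0, α x = α τ' := by
    apply constant_of_has_deriv_right_zero
    · intro x hx
      exact (hcont x ⟨by linarith [hx.1], by linarith [hx.2]⟩).continuousWithinAt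
    · intro x hx
      have h1 := hα x ⟨by linarith [hx.1], by linarith [hx.2]⟩
      rw [hτ'' x _ (hx.1.trans (le_abs_self x))] at h1
      exact h1.hasDerivWithinAt
  have hLf : ∀ x ∈ Icc (-T0) (-τ'), α x = α (-T0) := by
    apply constant_of_has_deriv_right_zero
    · intro x hx
      exact (hcont x ⟨by linarith [hx.1], by linarith [hx.2]⟩).continuousWithinAt
    · intro x hx
      have h1 := hα x ⟨by linarith [hx.1], by linarith [hx.2]⟩
      rw [hτ'' x _ (by rw [abs_of_nonpos (by linarith [hx.2])]; linarith [hx.2])] at h1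
      exact h1.hasDerivWithinAt
  set A : ℝ → ℝ := fun x => α (max (-T0) (min T0 x)) with hAdef
  have hAmid : ∀ x ∈ Ioo (-T0) T0, A x = α x := by
    intro x hx
    simp only [hAdef]
    rw [min_eq_right hx.2.le, max_eq_right hx.1.le]
  have hAR : ∀ x, τ' < x → A x = α τ' := by
    intro x hx
    simp only [hAdef]
    apply hR
    constructor
    · apply le_max_of_le_right
      apply le_min (by linarith) hx.le
    · apply max_le (by linarith) (min_le_left _ _)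
  have hAL : ∀ x, x < -τ' → A x = α (-T0) := by
    intro x hx
    simp only [hAdef]
    apply hLf
    constructor
    · exact le_max_left _ _
    · apply max_le (by linarith)
      exact (min_le_right _ _).trans hx.le
  have hder : ∀ x, HasDerivAt A (V x (A x)) x := by
    intro x
    by_cases h1 : x ∈ Ioo (-T0) T0
    · rw [hAmid x h1]
      have h2 := hα x ⟨by linarith [h1.1], by linarith [h1.2]⟩
      apply h2.congr_of_eventuallyEq
      filter_upwards [isOpen_Ioo.mem_nhds h1] with y hy using hAmid y hy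
    · rcases lt_or_ge τ' x with h2 | h2
      · rw [hτ'' x _ (h2.le.trans (le_abs_self x))]
        apply (hasDerivAt_const x (α τ')).congr_of_eventuallyEq
        filter_upwards [isOpen_Ioi.mem_nhds h2] with y hy using hAR y hy
      · have h3 : x < -τ' := by
          by_contra h4
          apply h1
          constructor <;> linarith
        rw [hτ'' x _ (by rw [abs_of_nonpos (by linarith)]; linarith)]
        apply (hasDerivAt_const x (α (-T0))).congr_of_eventuallyEq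
        filter_upwards [isOpen_Iio.mem_nhds h3] with y hy using hAL y hy
  have hA0 : A 0 = 0 := by
    rw [hAmid 0 ⟨by linarith, by linarith⟩, hα0]
  refine ⟨A, ode_smooth V hV A hder, hA0, hder, ?_⟩
  have hB : ∀ x, HasDerivAt (fun x => - A (-x)) (V x (- A (-x))) x := by
    intro x
    have h1 : HasDerivAt (fun y : ℝ => -y) (-1) x := (hasDerivAt_id x).neg
    have h2 := ((hder (-x)).scomp x h1).neg
    have h3 : V x (- A (-x)) = -((-1 : ℝ) • V (-x) (A (-x))) := by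
      rw [← hsym x (- A (-x)), neg_neg]; simp
    rw [h3]
    exact h2
  have hlip : ∀ t, LipschitzOnWith K.toNNReal (V t) univ := by
    intro t
    apply LipschitzWith.lipschitzOnWith
    apply LipschitzWith.of_dist_le_mul
    intro y y'
    rw [Real.dist_eq, Real.dist_eq]
    refine (hK t y y').trans ?_
    exact mul_le_mul_of_nonneg_right (Real.le_coe_toNNReal K) (abs_nonneg _)
  have huniq := ODE_solution_unique_univ (v := V) (s := fun _ => univ) (K := K.toNNReal)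
    (f := A) (g := fun x => - A (-x)) (t₀ := 0) hlip (fun t => ⟨hder t, mem_univ _⟩)
    (fun t => ⟨hB t, mem_univ _⟩) (by simp [hA0])
  intro x
  have := congrFun huniq (-x)
  simp only [neg_neg] at this
  exact this

end OdeGlobal

theorem exists_kink (a : ℝ) (ha : 0 < a) (s P : ℝ → ℝ) (hs : ContDiff ℝ ∞ s) (hP : ContDiff ℝ ∞ P)
    (hspos : ∀ x, 0 < s x) (hse : ∀ x, s (-x) = s x) (hPe : ∀ x, P (-x) = P x)
    (hsp : ∀ x, s (x + a) = s x) (hPp : ∀ x, P (x + a) = P x)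
    (e₁ e₂ e : ℝ) (he₁ : 0 < e₁) (he₂ : 0 < e₂) (he₁' : e₁ ≤ e) (he₂' : e₂ ≤ e)
    (hsmall : ∀ x, e * deriv s x ^ 2 < P x) (T : ℝ) (hT : 0 < T) :
    ∃ (A : ℝ → ℝ) (c : ℝ), ContDiff ℝ ∞ A ∧ (∀ x, A (-x) = - A x) ∧ 0 < c ∧ c < π / 2 ∧
      (∀ x, T ≤ x → A x = c) ∧ ∀ x, Good e₁ e₂ s P A x := by
  obtain ⟨hΦ, ⟨L, hL0, hL⟩, ⟨K, hK0, hK⟩, hsym⟩ :=
    PhiP_field a ha s P hs hP hspos hse hPe hsp hPp e₁ e₂ e he₁ he₂ he₁' he₂' hsmall
  obtain ⟨Φ, hΦdef⟩ : ∃ Φ : ℝ → ℝ → ℝ, Φ = fun x y => PhiP e₁ e₂ (s x) (deriv s x) (P x) y :=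
    ⟨_, rfl⟩
  have hΦ' : ContDiff ℝ ∞ (fun q : ℝ × ℝ => Φ q.1 q.2) := by rw [hΦdef]; exact hΦ
  have hL' : ∀ x y, |Φ x y| ≤ L := by rw [hΦdef]; exact hL
  have hK' : ∀ x y y', |Φ x y - Φ x y'| ≤ K * |y - y'| := by rw [hΦdef]; exact hK
  have hsym' : ∀ x y, Φ (-x) (-y) = Φ x y := by rw [hΦdef]; exact hsym
  have h2 : ∀ x y, 0 < a2 e₁ e₂ (s x) y := fun x y => a2_pos e₁ e₂ (s x) y he₁ he₂ (hspos x)
  have h0 : ∀ x y, a0 e₁ e₂ (deriv s x) (P x) y < 0 := fun x y =>
    a0_neg e₁ e₂ e (deriv s x) (P x) y he₁ he₂ he₁' he₂' (hsmall x)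
  have hroot : ∀ x y, a2 e₁ e₂ (s x) y * Φ x y ^ 2 + 2 * a1 e₁ e₂ (s x) (deriv s x) y * Φ x y
      + a0 e₁ e₂ (deriv s x) (P x) y = 0 := by
    rw [hΦdef]
    exact fun x y => (PhiP_root _ _ _ _ _ _ (h2 x y) (h0 x y)).1
  have hΦpos : ∀ x y, 0 < Φ x y := by
    rw [hΦdef]
    exact fun x y => (PhiP_root _ _ _ _ _ _ (h2 x y) (h0 x y)).2
  clear hΦdef hΦ hL hK hsym
  obtain ⟨τ, hτdef⟩ : ∃ τ : ℝ, τ = min T (π / (4 * L)) := ⟨_, rfl⟩
  have hτ : 0 < τ := by
    rw [hτdef]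
    exact lt_min hT (by positivity)
  have hτT : τ ≤ T := by rw [hτdef]; exact min_le_left _ _
  have hτL : L * τ ≤ π / 4 := by
    have h1 : τ ≤ π / (4 * L) := by rw [hτdef]; exact min_le_right _ _
    calc L * τ ≤ L * (π / (4 * L)) := mul_le_mul_of_nonneg_left h1 hL0.le
      _ = π / 4 := by field_simp
  obtain ⟨ν, hν, hνe, hν0, hν1, hνz, hνo⟩ := exists_nu τ hτ
  have hθ0 : ∀ x, 0 ≤ 1 - ν x ^ 2 := by
    intro x
    nlinarith [hν0 x, hν1 x]
  have hθ1 : ∀ x, 1 - ν x ^ 2 ≤ 1 := by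
    intro x
    nlinarith [sq_nonneg (ν x)]
  have hV1 : ContDiff ℝ ∞ (fun p : ℝ × ℝ => (1 - ν p.1 ^ 2) * Φ p.1 p.2) :=
    (contDiff_const.sub ((hν.comp contDiff_fst).pow 2)).mul hΦ'
  have hV2 : ∀ x y, |(1 - ν x ^ 2) * Φ x y| ≤ L := by
    intro x y
    rw [abs_mul, abs_of_nonneg (hθ0 x)]
    calc (1 - ν x ^ 2) * |Φ x y| ≤ 1 * L := mul_le_mul (hθ1 x) (hL' x y) (abs_nonneg _) zero_le_one
      _ = L := one_mul _
  have hV3 : ∀ x y y', |(1 - ν x ^ 2) * Φ x y - (1 - ν x ^ 2) * Φ x y'| ≤ K * |y - y'| := by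
    intro x y y'
    rw [← mul_sub, abs_mul, abs_of_nonneg (hθ0 x)]
    calc (1 - ν x ^ 2) * |Φ x y - Φ x y'| ≤ 1 * (K * |y - y'|) :=
          mul_le_mul (hθ1 x) (hK' x y y') (abs_nonneg _) zero_le_one
      _ = _ := one_mul _
  have hV4 : ∀ x y, τ ≤ |x| → (1 - ν x ^ 2) * Φ x y = 0 := by
    intro x y hx
    have h1 : ν x = 1 := hνo x (by linarith)
    rw [h1]
    ring
  have hV5 : ∀ x y, (1 - ν (-x) ^ 2) * Φ (-x) (-y) = (1 - ν x ^ 2) * Φ x y := by
    intro x y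
    rw [hνe, hsym']
  obtain ⟨A, hA, hA0, hAd, hAodd⟩ :=
    ode_global (fun x y => (1 - ν x ^ 2) * Φ x y) hV1 L K τ hV2 hV3 hV4 hV5
  have hAd' : ∀ x, deriv A x = (1 - ν x ^ 2) * Φ x (A x) := fun x => (hAd x).deriv
  have hAmono : Monotone A :=
    monotone_of_deriv_nonneg (fun x => (hAd x).differentiableAt)
      (fun x => by rw [hAd']; exact mul_nonneg (hθ0 x) (hΦpos _ _).le)
  have hApos : ∀ x, 0 < x → 0 < A x := by
    intro x hx
    have hstrict : StrictMonoOn A (Set.Icc 0 (τ / 3)) := by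
      apply strictMonoOn_of_deriv_pos (convex_Icc _ _) hA.continuous.continuousOn
      intro z hz
      rw [interior_Icc] at hz
      rw [hAd', hνz z (by rw [abs_of_pos hz.1]; exact hz.2.le)]
      simpa using hΦpos z (A z)
    have h1 : 0 < min x (τ / 3) := lt_min hx (by positivity)
    have h3 : A 0 < A (min x (τ / 3)) :=
      hstrict ⟨le_refl _, by positivity⟩ ⟨h1.le, min_le_right _ _⟩ h1
    rw [hA0] at h3
    exact lt_of_lt_of_le h3 (hAmono (min_le_left _ _))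
  have hAconst : ∀ x, τ ≤ x → A x = A τ := by
    intro x hx
    have h := (convex_Ici τ).norm_image_sub_le_of_norm_hasDerivWithin_le (f := A)
      (f' := fun z => (1 - ν z ^ 2) * Φ z (A z)) (C := 0)
      (fun z _ => (hAd z).hasDerivWithinAt)
      (fun z hz => by
        have hz' : τ ≤ z := hz
        rw [hV4 z (A z) (by rw [abs_of_nonneg (by linarith)]; exact hz')]
        simp) (Set.mem_Ici.2 le_rfl) (Set.mem_Ici.2 hx)
    rw [zero_mul] at h
    exact sub_eq_zero.1 (norm_le_zero_iff.1 h)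
  have hAle : ∀ x, 0 ≤ x → A x ≤ π / 4 := by
    intro x hx
    have h1 : A x ≤ A τ := by
      rcases le_total x τ with h | h
      · exact hAmono h
      · exact (hAconst x h).le
    have h3 : A τ ≤ L * τ := by
      have h := (convex_univ).norm_image_sub_le_of_norm_hasDerivWithin_le (f := A)
        (f' := fun z => (1 - ν z ^ 2) * Φ z (A z)) (C := L)
        (fun z _ => (hAd z).hasDerivWithinAt)
        (fun z _ => by rw [Real.norm_eq_abs]; exact hV2 z (A z)) (Set.mem_univ (0 : ℝ))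
        (Set.mem_univ τ)
      rw [hA0, sub_zero, sub_zero, Real.norm_eq_abs, Real.norm_eq_abs, abs_of_pos hτ] at h
      exact (le_abs_self _).trans h
    linarith
  have hrange : ∀ x, x ≠ 0 → sin (A x) * cos (A x) ≠ 0 := by
    intro x hx
    rcases lt_or_gt_of_ne hx with h | h
    · have hp := hApos (-x) (by linarith)
      have hl := hAle (-x) (by linarith)
      rw [hAodd] at hp hl
      have hs' : sin (A x) < 0 :=
        Real.sin_neg_of_neg_of_neg_pi_lt (by linarith) (by linarith [Real.pi_pos])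
      have hc' : 0 < cos (A x) :=
        Real.cos_pos_of_mem_Ioo ⟨by linarith [Real.pi_pos], by linarith [Real.pi_pos]⟩
      exact mul_ne_zero hs'.ne hc'.ne'
    · have hp := hApos x h
      have hl := hAle x h.le
      have hs' : 0 < sin (A x) :=
        Real.sin_pos_of_pos_of_lt_pi hp (by linarith [Real.pi_pos])
      have hc' : 0 < cos (A x) :=
        Real.cos_pos_of_mem_Ioo ⟨by linarith [Real.pi_pos], by linarith [Real.pi_pos]⟩
      exact mul_ne_zero hs'.ne' hc'.ne'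
  obtain ⟨g, hg⟩ : ∃ g : ℝ → ℝ, g = fun x => Φ x (A x) := ⟨_, rfl⟩
  have hgx : ∀ x, Φ x (A x) = g x := fun x => by rw [hg]
  have hgs : ContDiff ℝ ∞ g := by
    rw [hg]
    exact hΦ'.comp (contDiff_id.prodMk hA)
  obtain ⟨q, hqdef⟩ : ∃ q : ℝ → ℝ, q = fun x => -(a0 e₁ e₂ (deriv s x) (P x) (A x))
      + (1 - ν x ^ 2) * (a2 e₁ e₂ (s x) (A x) * g x ^ 2) := ⟨_, rfl⟩
  have hRem : ∀ x, Rem e₁ e₂ s P A x = ν x ^ 2 * q x := by
    intro x
    unfold Rem Nq
    rw [hAd' x, rem_formula e₁ e₂ (s x) (deriv s x) (P x) (A x) (1 - ν x ^ 2) (Φ x (A x))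
      (hroot x (A x)), hqdef, hgx]
    ring
  have hqpos : ∀ x, 0 < q x := by
    intro x
    have e1 := h0 x (A x)
    have e2 : 0 ≤ (1 - ν x ^ 2) * (a2 e₁ e₂ (s x) (A x) * g x ^ 2) :=
      mul_nonneg (hθ0 x) (mul_nonneg (h2 x (A x)).le (sq_nonneg _))
    rw [hqdef]
    simp only
    linarith
  have hds : ContDiff ℝ ∞ (deriv s) := (contDiff_infty_iff_deriv.1 hs).2
  have hq : ContDiff ℝ ∞ q := by
    rw [hqdef]
    exact (((hds.pow 2).mul ((contDiff_const.mul (hA.cos.pow 2)).add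
      (contDiff_const.mul (hA.sin.pow 2)))).sub hP).neg.add
      ((contDiff_const.sub (hν.pow 2)).mul (((hs.pow 2).mul ((contDiff_const.mul (hA.sin.pow 2)).add
        (contDiff_const.mul (hA.cos.pow 2)))).mul (hgs.pow 2)))
  have hLam : Lam e₁ e₂ s P A = fun x => ν x * sqrt (q x) / (s x * sin (A x) * cos (A x)) := by
    funext x
    unfold Lam
    rw [hRem x, Real.sqrt_mul (sq_nonneg _), Real.sqrt_sq (hν0 x)]
  refine ⟨A, A τ, hA, hAodd, hApos τ hτ, by linarith [hAle τ hτ.le, Real.pi_pos],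
    fun x hx => hAconst x (hτT.trans hx), fun x => ⟨?_, ?_, ?_⟩⟩
  · rw [hRem]
    exact mul_nonneg (sq_nonneg _) (hqpos x).le
  · by_cases hx : x = 0
    · subst hx
      have hev : Lam e₁ e₂ s P A =ᶠ[nhds 0] fun _ => (0 : ℝ) := by
        rw [hLam]
        have hmem : Set.Ioo (-(τ / 3)) (τ / 3) ∈ nhds (0 : ℝ) :=
          Ioo_mem_nhds (by linarith) (by linarith)
        filter_upwards [hmem] with z hz
        rw [hνz z (abs_le.2 ⟨hz.1.le, hz.2.le⟩)]
        simp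
      exact contDiffAt_const.congr_of_eventuallyEq hev
    · rw [hLam]
      apply ContDiffAt.div
      · exact (hν.mul (hq.sqrt (fun z => (hqpos z).ne'))).contDiffAt
      · exact ((hs.mul hA.sin).mul hA.cos).contDiffAt
      · rw [mul_assoc]
        exact mul_ne_zero (hspos x).ne' (hrange x hx)
  · intro h
    by_cases hx : x = 0
    · subst hx
      rw [hRem, hνz 0 (by rw [abs_zero]; positivity)]
      ring
    · exact absurd h (hrange x hx)

end Vale.Agent.Lib.P205.Klein
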