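import Mathlib
import Vale.Agent.Lib.P205.Klein.Defs

/-! P205 / Klein, module KT: transport of `Good`.  FROZEN STATEMENTS, fill the sorries.
ROUTE: unfold `Good, Lam, Rem, Nq`.  `congr`: `Filter.EventuallyEq.deriv` gives `deriv φ =ᶠ deriv ψ`, so
`Rem`, `Lam` are eventually equal (`ContDiffAt.congr_of_eventuallyEq`, `EventuallyEq.eq_of_nhds`).
`neg`: `deriv (fun t => -φ t) = -deriv φ` (`deriv.neg` / `deriv.fun_neg`), `sin_neg`, `cos_neg`; `Nq` is unchanged (ring),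
`Lam` changes sign as a FUNCTION (funext), `ContDiffAt.neg`.
`shift`: `deriv (fun t => s (t + h)) x = deriv s (x + h)` (`deriv_comp_add_const`), `deriv (fun t => φ (t - h)) y = deriv φ (y - h)`
(`deriv_comp_sub_const`); as functions `Lam e₁ e₂ s P (fun t => φ (t - h)) = fun y => Lam e₁ e₂ (s(·+h)) (P(·+h)) φ (y - h)`;
compose `ContDiffAt` with `y ↦ y - h`.
`identity`: if `sin cos ≠ 0` use `Real.sq_sqrt`, `field_simp`; needs `s x ≠ 0`. -/

namespace Vale.Agent.Lib.P205.Klein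

open Real Filter Topology
open scoped ContDiff

theorem Good.congr {e₁ e₂ : ℝ} {s P φ ψ : ℝ → ℝ} {x : ℝ} (h : φ =ᶠ[𝓝 x] ψ)
    (hg : Good e₁ e₂ s P ψ x) : Good e₁ e₂ s P φ x := by
  have hd : deriv φ =ᶠ[𝓝 x] deriv ψ := h.deriv
  have hRem : Rem e₁ e₂ s P φ =ᶠ[𝓝 x] Rem e₁ e₂ s P ψ := by
    filter_upwards [h, hd] with y hy hdy
    simp only [Rem, Nq, hy, hdy]
  have hLam : Lam e₁ e₂ s P φ =ᶠ[𝓝 x] Lam e₁ e₂ s P ψ := by
    filter_upwards [h, hRem] with y hy hr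
    simp only [Lam, hy, hr]
  refine ⟨?_, hg.2.1.congr_of_eventuallyEq hLam, ?_⟩
  · rw [hRem.eq_of_nhds]; exact hg.1
  · rw [h.eq_of_nhds, hRem.eq_of_nhds]; exact hg.2.2

private lemma Nq_neg (e₁ e₂ : ℝ) (s φ : ℝ → ℝ) (y : ℝ) :
    Nq e₁ e₂ s (fun t => - φ t) y = Nq e₁ e₂ s φ y := by
  have hd : deriv (fun t => - φ t) y = - deriv φ y := deriv.fun_neg
  simp only [Nq, hd, sin_neg, cos_neg]
  ring

private lemma Lam_neg (e₁ e₂ : ℝ) (s P φ : ℝ → ℝ) (y : ℝ) :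
    Lam e₁ e₂ s P (fun t => - φ t) y = - Lam e₁ e₂ s P φ y := by
  simp only [Lam, Rem, Nq_neg, sin_neg, cos_neg]
  rw [mul_neg, neg_mul, div_neg]

theorem Good.neg {e₁ e₂ : ℝ} {s P φ : ℝ → ℝ} {x : ℝ} (hg : Good e₁ e₂ s P φ x) :
    Good e₁ e₂ s P (fun t => - φ t) x := by
  have hR : Rem e₁ e₂ s P (fun t => - φ t) x = Rem e₁ e₂ s P φ x := by
    simp only [Rem, Nq_neg]
  have hL : Lam e₁ e₂ s P (fun t => - φ t) = fun y => - Lam e₁ e₂ s P φ y :=
    funext (Lam_neg e₁ e₂ s P φ)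
  refine ⟨by rw [hR]; exact hg.1, by rw [hL]; exact hg.2.1.neg, ?_⟩
  intro h0
  rw [hR]
  apply hg.2.2
  simp only [sin_neg, cos_neg] at h0
  linarith

private lemma Nq_shift (e₁ e₂ : ℝ) (s φ : ℝ → ℝ) (h y : ℝ) :
    Nq e₁ e₂ s (fun t => φ (t - h)) y = Nq e₁ e₂ (fun t => s (t + h)) φ (y - h) := by
  have h1 : deriv (fun t => φ (t - h)) y = deriv φ (y - h) := deriv_comp_sub_const φ h y
  have h2 : deriv (fun t => s (t + h)) (y - h) = deriv s y := by
    rw [deriv_comp_add_const s h (y - h), sub_add_cancel]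
  simp only [Nq, h1, h2, sub_add_cancel]

private lemma Lam_shift (e₁ e₂ : ℝ) (s P φ : ℝ → ℝ) (h y : ℝ) :
    Lam e₁ e₂ s P (fun t => φ (t - h)) y
      = Lam e₁ e₂ (fun t => s (t + h)) (fun t => P (t + h)) φ (y - h) := by
  simp only [Lam, Rem, Nq_shift, sub_add_cancel]

theorem Good.shift {e₁ e₂ : ℝ} {s P φ : ℝ → ℝ} {x : ℝ} (h : ℝ)
    (hg : Good e₁ e₂ (fun t => s (t + h)) (fun t => P (t + h)) φ x) :
    Good e₁ e₂ s P (fun t => φ (t - h)) (x + h) := by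
  have hR : Rem e₁ e₂ s P (fun t => φ (t - h)) (x + h)
      = Rem e₁ e₂ (fun t => s (t + h)) (fun t => P (t + h)) φ x := by
    simp only [Rem, Nq_shift, add_sub_cancel_right]
  have hL : Lam e₁ e₂ s P (fun t => φ (t - h))
      = fun y => Lam e₁ e₂ (fun t => s (t + h)) (fun t => P (t + h)) φ (y - h) :=
    funext (Lam_shift e₁ e₂ s P φ h)
  refine ⟨by rw [hR]; exact hg.1, ?_, ?_⟩
  · rw [hL]
    have hc : ContDiffAt ℝ ∞ (fun y : ℝ => y - h) (x + h) := contDiffAt_id.sub contDiffAt_const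
    have hg' : ContDiffAt ℝ ∞ (Lam e₁ e₂ (fun t => s (t + h)) (fun t => P (t + h)) φ)
        ((fun y : ℝ => y - h) (x + h)) := by
      simpa using hg.2.1
    exact hg'.comp (x + h) hc
  · intro h0
    rw [hR]
    apply hg.2.2
    simpa using h0

theorem Good.identity {e₁ e₂ : ℝ} {s P φ : ℝ → ℝ} {x : ℝ} (hs : s x ≠ 0)
    (hg : Good e₁ e₂ s P φ x) :
    Nq e₁ e₂ s φ x + s x ^ 2 * Lam e₁ e₂ s P φ x ^ 2 * (sin (φ x) ^ 2 * cos (φ x) ^ 2) = P x := by
  by_cases h0 : sin (φ x) * cos (φ x) = 0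
  · have hR := hg.2.2 h0
    have e : sin (φ x) ^ 2 * cos (φ x) ^ 2 = (sin (φ x) * cos (φ x)) ^ 2 := by ring
    rw [e, h0]
    simp only [Rem] at hR
    simp only [ne_eq, OfNat.ofNat_ne_zero, not_false_eq_true, zero_pow, mul_zero, add_zero]
    linarith
  · have hsq : sqrt (Rem e₁ e₂ s P φ x) ^ 2 = Rem e₁ e₂ s P φ x := Real.sq_sqrt hg.1
    have hden : s x * sin (φ x) * cos (φ x) ≠ 0 := by
      rw [mul_assoc]; exact mul_ne_zero hs h0
    have e : s x ^ 2 * Lam e₁ e₂ s P φ x ^ 2 * (sin (φ x) ^ 2 * cos (φ x) ^ 2)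
        = Rem e₁ e₂ s P φ x := by
      simp only [Lam]
      rw [div_pow, hsq]
      have e2 : s x ^ 2 * (Rem e₁ e₂ s P φ x / (s x * sin (φ x) * cos (φ x)) ^ 2)
          * (sin (φ x) ^ 2 * cos (φ x) ^ 2)
          = Rem e₁ e₂ s P φ x * ((s x * sin (φ x) * cos (φ x)) ^ 2
            / (s x * sin (φ x) * cos (φ x)) ^ 2) := by ring
      rw [e2, div_self (pow_ne_zero 2 hden), mul_one]
    rw [e]
    simp only [Rem]
    ring

/-- parity: `s`, `P` even, `φ` odd -/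
theorem Lam_odd {e₁ e₂ : ℝ} {s P φ : ℝ → ℝ} (hs : ∀ x, s (-x) = s x) (hP : ∀ x, P (-x) = P x)
    (hφ : ∀ x, φ (-x) = - φ x) (x : ℝ) : Lam e₁ e₂ s P φ (-x) = - Lam e₁ e₂ s P φ x := by
  have hds : deriv s (-x) = - deriv s x := by
    have e : s = fun t => s (-t) := funext fun t => (hs t).symm
    have h1 : deriv s x = deriv (fun t => s (-t)) x := by rw [← e]
    rw [deriv_comp_neg] at h1
    linarith
  have hdφ : deriv φ (-x) = deriv φ x := by
    have e : φ = fun t => - φ (-t) := funext fun t => by rw [hφ t, neg_neg]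
    have h1 : deriv φ x = deriv (fun t => - φ (-t)) x := by rw [← e]
    have h2 : deriv (fun t => - φ (-t)) x = - deriv (fun t => φ (-t)) x := deriv.fun_neg
    rw [h2, deriv_comp_neg] at h1
    linarith
  have hN : Nq e₁ e₂ s φ (-x) = Nq e₁ e₂ s φ x := by
    simp only [Nq, hds, hdφ, hs, hφ, sin_neg, cos_neg]
    ring
  simp only [Lam, Rem, hN, hs, hP, hφ, sin_neg, cos_neg]
  rw [mul_neg, neg_mul, div_neg]

theorem Lam_periodic {e₁ e₂ a : ℝ} {s P φ : ℝ → ℝ} (hs : ∀ x, s (x + a) = s x)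
    (hP : ∀ x, P (x + a) = P x) (hφ : ∀ x, φ (x + a) = φ x) (x : ℝ) :
    Lam e₁ e₂ s P φ (x + a) = Lam e₁ e₂ s P φ x := by
  have hds : deriv s (x + a) = deriv s x := by
    have e : s = fun t => s (t + a) := funext fun t => (hs t).symm
    have h1 : deriv s x = deriv (fun t => s (t + a)) x := by rw [← e]
    rw [deriv_comp_add_const] at h1
    exact h1.symm
  have hdφ : deriv φ (x + a) = deriv φ x := by
    have e : φ = fun t => φ (t + a) := funext fun t => (hφ t).symm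
    have h1 : deriv φ x = deriv (fun t => φ (t + a)) x := by rw [← e]
    rw [deriv_comp_add_const] at h1
    exact h1.symm
  simp only [Lam, Rem, Nq, hds, hdφ, hs, hP, hφ]

/-- strictly positive remainder and `0 < m < π/2`: everything is smooth -/
theorem good_of_pos {e₁ e₂ e : ℝ} {s P m : ℝ → ℝ} (hs : ContDiff ℝ ∞ s) (hP : ContDiff ℝ ∞ P)
    (hm : ContDiff ℝ ∞ m) (hspos : ∀ x, 0 < s x) (h0 : ∀ x, 0 < m x) (h1 : ∀ x, m x < π / 2)
    (he₁ : 0 ≤ e₁) (he₂ : 0 ≤ e₂) (he₁' : e₁ ≤ e) (he₂' : e₂ ≤ e)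
    (hsmall : ∀ x, e * (deriv s x ^ 2 + s x ^ 2 * deriv m x ^ 2) < P x) (x : ℝ) :
    Good e₁ e₂ s P m x := by
  have hpos : ∀ y, 0 < Rem e₁ e₂ s P m y := by
    intro y
    have hsc := sin_sq_add_cos_sq (m y)
    have hXY : (deriv s y * cos (m y) - s y * deriv m y * sin (m y)) ^ 2
        + (deriv s y * sin (m y) + s y * deriv m y * cos (m y)) ^ 2
        = deriv s y ^ 2 + s y ^ 2 * deriv m y ^ 2 := by
      have : (deriv s y * cos (m y) - s y * deriv m y * sin (m y)) ^ 2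
        + (deriv s y * sin (m y) + s y * deriv m y * cos (m y)) ^ 2
        = (deriv s y ^ 2 + s y ^ 2 * deriv m y ^ 2) * (sin (m y) ^ 2 + cos (m y) ^ 2) := by ring
      rw [this, hsc, mul_one]
    have hX : e₁ * (deriv s y * cos (m y) - s y * deriv m y * sin (m y)) ^ 2
        ≤ e * (deriv s y * cos (m y) - s y * deriv m y * sin (m y)) ^ 2 :=
      mul_le_mul_of_nonneg_right he₁' (sq_nonneg _)
    have hY : e₂ * (deriv s y * sin (m y) + s y * deriv m y * cos (m y)) ^ 2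
        ≤ e * (deriv s y * sin (m y) + s y * deriv m y * cos (m y)) ^ 2 :=
      mul_le_mul_of_nonneg_right he₂' (sq_nonneg _)
    have := hsmall y
    rw [← hXY, mul_add] at this
    simp only [Rem, Nq]
    linarith
  have hsin : ∀ y, 0 < sin (m y) := fun y =>
    sin_pos_of_pos_of_lt_pi (h0 y) (by have := h1 y; linarith [pi_pos])
  have hcos : ∀ y, 0 < cos (m y) := fun y =>
    cos_pos_of_mem_Ioo ⟨by have := h0 y; linarith [pi_pos], h1 y⟩
  have hds : ContDiff ℝ ∞ (deriv s) := (contDiff_infty_iff_deriv.1 hs).2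
  have hdm : ContDiff ℝ ∞ (deriv m) := (contDiff_infty_iff_deriv.1 hm).2
  have hsinm : ContDiff ℝ ∞ (fun y => sin (m y)) := hm.sin
  have hcosm : ContDiff ℝ ∞ (fun y => cos (m y)) := hm.cos
  have hRem : ContDiff ℝ ∞ (Rem e₁ e₂ s P m) := by
    have hN : ContDiff ℝ ∞ (Nq e₁ e₂ s m) := by
      unfold Nq
      exact (contDiff_const.mul (((hds.mul hcosm).sub ((hs.mul hdm).mul hsinm)).pow 2)).add
        (contDiff_const.mul (((hds.mul hsinm).add ((hs.mul hdm).mul hcosm)).pow 2))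
    unfold Rem
    exact hP.sub hN
  refine ⟨(hpos x).le, ?_, ?_⟩
  · have hsq : ContDiffAt ℝ ∞ (fun y => sqrt (Rem e₁ e₂ s P m y)) x :=
      hRem.contDiffAt.sqrt (hpos x).ne'
    have hden : ContDiffAt ℝ ∞ (fun y => s y * sin (m y) * cos (m y)) x :=
      ((hs.mul hsinm).mul hcosm).contDiffAt
    have hne : s x * sin (m x) * cos (m x) ≠ 0 :=
      (mul_pos (mul_pos (hspos x) (hsin x)) (hcos x)).ne'
    exact hsq.div hden hne
  · intro h
    exact absurd h (mul_pos (hsin x) (hcos x)).ne'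

end Vale.Agent.Lib.P205.Klein
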