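import Mathlib
import Vale.Agent.Lib.P205.Klein.Defs
import Vale.Agent.Lib.P205.Klein.Transport
import Vale.Agent.Lib.P205.Klein.Glue
import Vale.Agent.Lib.P205.Klein.Kink

/-! P205 / Klein: the core lemma (assembly of Transport, Glue, Kink). -/

namespace Vale.Agent.Lib.P205.Klein

open Real Filter Topology
open scoped ContDiff

theorem core (a : ℝ) (ha : 0 < a) (s P : ℝ → ℝ) (hs : ContDiff ℝ ∞ s) (hP : ContDiff ℝ ∞ P)
    (hspos : ∀ x, 0 < s x) (hse : ∀ x, s (-x) = s x) (hPe : ∀ x, P (-x) = P x)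
    (hsp : ∀ x, s (x + a) = s x) (hPp : ∀ x, P (x + a) = P x)
    (e₁ e₂ e C : ℝ) (he₁ : 0 < e₁) (he₂ : 0 < e₂) (he₁' : e₁ ≤ e) (he₂' : e₂ ≤ e) (hC : 0 ≤ C)
    (hCmid : ∀ cA cB : ℝ, 0 < cA → cA < π / 2 → 0 < cB → cB < π / 2 →
      ∀ x, deriv (mid a cA cB) x ^ 2 ≤ C)
    (hsmall : ∀ x, e * (deriv s x ^ 2 + s x ^ 2 * C) < P x) :
    ∃ φ lam : ℝ → ℝ, ContDiff ℝ ∞ φ ∧ ContDiff ℝ ∞ lam ∧ (∀ x, φ (-x) = - φ x) ∧
      (∀ x, φ (x + a) = φ x) ∧ (∀ x, lam (-x) = - lam x) ∧ (∀ x, lam (x + a) = lam x) ∧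
      ∀ x, Nq e₁ e₂ s φ x + s x ^ 2 * lam x ^ 2 * (sin (φ x) ^ 2 * cos (φ x) ^ 2) = P x := by
  have he : 0 < e := lt_of_lt_of_le he₁ he₁'
  have hsmall0 : ∀ x, e * deriv s x ^ 2 < P x := by
    intro x
    have h1 := hsmall x
    have h2 : 0 ≤ e * (s x ^ 2 * C) := by positivity
    nlinarith
  obtain ⟨A, cA, sA, oA, cA0, cA1, pA, gA⟩ := exists_kink a ha s P hs hP hspos hse hPe hsp hPp
    e₁ e₂ e he₁ he₂ he₁' he₂' hsmall0 (a / 12) (by positivity)
  have hs2 : ContDiff ℝ ∞ (fun t => s (t + a / 2)) := hs.comp (contDiff_id.add contDiff_const)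
  have hP2 : ContDiff ℝ ∞ (fun t => P (t + a / 2)) := hP.comp (contDiff_id.add contDiff_const)
  have even2 : ∀ f : ℝ → ℝ, (∀ x, f (-x) = f x) → (∀ x, f (x + a) = f x) →
      ∀ x, f (-x + a / 2) = f (x + a / 2) := by
    intro f h1 h2 x
    have h3 := h1 (x - a / 2)
    have h4 := h2 (x - a / 2)
    rw [show -x + a / 2 = -(x - a / 2) by ring, h3, ← h4]
    congr 1
    ring
  have per2 : ∀ f : ℝ → ℝ, (∀ x, f (x + a) = f x) → ∀ x, f (x + a + a / 2) = f (x + a / 2) := by
    intro f h2 x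
    rw [show x + a + a / 2 = (x + a / 2) + a by ring, h2]
  have hsmall2 : ∀ x, e * deriv (fun t => s (t + a / 2)) x ^ 2 < P (x + a / 2) := by
    intro x
    rw [deriv_comp_add_const]
    exact hsmall0 _
  obtain ⟨B, cB, sB, oB, cB0, cB1, pB, gB⟩ := exists_kink a ha (fun t => s (t + a / 2))
    (fun t => P (t + a / 2)) hs2 hP2 (fun x => hspos _) (even2 s hse hsp) (even2 P hPe hPp)
    (per2 s hsp) (per2 P hPp) e₁ e₂ e he₁ he₂ he₁' he₂' hsmall2 (a / 12) (by positivity)
  have gmid : ∀ x, Good e₁ e₂ s P (mid a cA cB) x := by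
    apply good_of_pos hs hP (mid_contDiff a cA cB) hspos (mid_pos a cA cB cA0 cB0)
      (mid_lt a cA cB cA1 cB1) he₁.le he₂.le he₁' he₂'
    intro x
    have h1 := hsmall x
    have h2 := hCmid cA cB cA0 cA1 cB0 cB1 x
    have h3 : s x ^ 2 * deriv (mid a cA cB) x ^ 2 ≤ s x ^ 2 * C :=
      mul_le_mul_of_nonneg_left h2 (sq_nonneg _)
    nlinarith
  have good : ∀ x, Good e₁ e₂ s P (phi a A B) x := by
    intro x
    rcases phi_local a ha A B cA cB oA oB pA pB x with ⟨n, h⟩ | ⟨n, h⟩ | h | h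
    · apply Good.congr h
      have hs' : (fun t => s (t + n * a)) = s :=
        funext (fun t => (Function.Periodic.int_mul hsp n) t)
      have hP' : (fun t => P (t + n * a)) = P :=
        funext (fun t => (Function.Periodic.int_mul hPp n) t)
      have h1 : Good e₁ e₂ (fun t => s (t + n * a)) (fun t => P (t + n * a)) A (x - n * a) := by
        rw [hs', hP']
        exact gA _
      have h2 := Good.shift (n * a) h1
      rwa [sub_add_cancel] at h2
    · apply Good.congr h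
      have hs' : (fun t => s (t + (a / 2 + n * a))) = fun t => s (t + a / 2) :=
        funext (fun t => by
          rw [← add_assoc]
          exact (Function.Periodic.int_mul hsp n) _)
      have hP' : (fun t => P (t + (a / 2 + n * a))) = fun t => P (t + a / 2) :=
        funext (fun t => by
          rw [← add_assoc]
          exact (Function.Periodic.int_mul hPp n) _)
      have h1 : Good e₁ e₂ (fun t => s (t + (a / 2 + n * a))) (fun t => P (t + (a / 2 + n * a))) B
          (x - (a / 2 + n * a)) := by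
        rw [hs', hP']
        exact gB _
      have h2 := Good.shift (a / 2 + n * a) h1
      rw [sub_add_cancel] at h2
      exact Good.neg h2
    · exact Good.congr h (gmid x)
    · exact Good.congr h (Good.neg (gmid x))
  refine ⟨phi a A B, Lam e₁ e₂ s P (phi a A B), phi_contDiff a ha A B cA cB sA sB oA oB pA pB,
    contDiff_iff_contDiffAt.mpr (fun x => (good x).2.1), phi_odd a ha A B oA oB,
    phi_periodic a ha A B, Lam_odd hse hPe (phi_odd a ha A B oA oB),
    Lam_periodic hsp hPp (phi_periodic a ha A B), fun x => (good x).identity (hspos x).ne'⟩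

end Vale.Agent.Lib.P205.Klein
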