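import Mathlib

/-! P205 / Klein, module KA (helper lemma for `exists_kink`).  FROZEN STATEMENT (filled by helper24).
ROUTE: `A` is monotone (`monotone_of_deriv_nonneg`, `deriv A x = V x (A x) ≥ 0`); constant on `[τ, ∞)` (`constant_of_has_deriv_right_zero` on `Icc τ x`);
strictly increasing on `Icc 0 (τ/3)` (`strictMonoOn_of_deriv_pos`), so `0 = A 0 < A (min x (τ/3)) ≤ A x`;
`A τ - A 0 ≤ L τ` by the mean value inequality (`Convex.image_sub_le_mul_sub_of_deriv_le` or `exists_deriv_eq_slope`). -/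

namespace Vale.Agent.Lib.P205.Klein

theorem kink_range (V : ℝ → ℝ → ℝ) (A : ℝ → ℝ) (L τ : ℝ) (hτ : 0 < τ) (hA0 : A 0 = 0)
    (hA : ∀ x, HasDerivAt A (V x (A x)) x) (hV0 : ∀ x y, 0 ≤ V x y) (hVL : ∀ x y, V x y ≤ L)
    (hVpos : ∀ x y, |x| ≤ τ / 3 → 0 < V x y) (hVτ : ∀ x y, τ ≤ |x| → V x y = 0) :
    (∀ x, τ ≤ x → A x = A τ) ∧ 0 < A τ ∧ A τ ≤ L * τ ∧ ∀ x, 0 < x → 0 < A x ∧ A x ≤ A τ := by
  have hdiff : Differentiable ℝ A := fun x => (hA x).differentiableAt
  have hderiv : ∀ x, deriv A x = V x (A x) := fun x => (hA x).deriv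
  have hmono : Monotone A := monotone_of_deriv_nonneg hdiff (fun x => by rw [hderiv]; exact hV0 _ _)
  have hconst : ∀ x, τ ≤ x → A x = A τ := by
    intro x hx
    have h1 : ∀ y ∈ Set.Icc τ x, A y = A τ := by
      apply constant_of_derivWithin_zero (hdiff.differentiableOn)
      intro y hy
      have hy' : τ ≤ |y| := le_trans hy.1 (le_abs_self y)
      have h2 : HasDerivWithinAt A 0 (Set.Icc τ x) y := by
        have := (hA y).hasDerivWithinAt (s := Set.Icc τ x)
        rwa [hVτ y _ hy'] at this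
      have hlt : τ < x := lt_of_le_of_lt hy.1 hy.2
      exact h2.derivWithin (uniqueDiffOn_Icc hlt y ⟨hy.1, hy.2.le⟩)
    exact h1 x ⟨hx, le_rfl⟩
  have hstrict : StrictMonoOn A (Set.Icc 0 (τ / 3)) := by
    apply strictMonoOn_of_deriv_pos (convex_Icc _ _) hdiff.continuous.continuousOn
    intro y hy
    rw [interior_Icc] at hy
    rw [hderiv]
    apply hVpos
    rw [abs_of_pos hy.1]
    exact hy.2.le
  have hpos : ∀ x, 0 < x → 0 < A x := by
    intro x hx
    have hm : 0 < min x (τ / 3) := lt_min hx (by positivity)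
    have h1 : A 0 < A (min x (τ / 3)) :=
      hstrict ⟨le_rfl, by positivity⟩ ⟨hm.le, min_le_right _ _⟩ hm
    rw [hA0] at h1
    exact lt_of_lt_of_le h1 (hmono (min_le_left _ _))
  have hle : ∀ x, A x ≤ A τ := by
    intro x
    rcases le_total x τ with h | h
    · exact hmono h
    · exact (hconst x h).le
  refine ⟨hconst, hpos τ hτ, ?_, fun x hx => ⟨hpos x hx, hle x⟩⟩
  have h1 := Convex.image_sub_le_mul_sub_of_deriv_le (convex_Icc (0:ℝ) τ)
    hdiff.continuous.continuousOn hdiff.differentiableOn (C := L)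
    (fun y _ => by rw [hderiv]; exact hVL _ _) 0 ⟨le_rfl, hτ.le⟩ τ ⟨hτ.le, le_rfl⟩ hτ.le
  rw [hA0] at h1
  simpa using h1

end Vale.Agent.Lib.P205.Klein
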