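import Mathlib
import Vale.Agent.Lib.P205.Pullback
import Vale.Agent.Lib.P205.Klein.Defs

/-! P205 / Klein, part 2 modules KH (Hopf2), KF (phase), KW (weights).  FROZEN STATEMENTS, fill the sorries.
`hopf2_contDiff`, `hopf2_pullback`: MECHANICAL PORT of `hopfMap_contDiff`, `hopfMap_pullback` in `Vale/Agent/Lib/P205/Twist/Hopf.lean`
(there `κ₁ = κ₂ = κ`); copy the proofs and replace `κ` by `κ₁` in the first two coordinates, by `κ₂` in the last two.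
`exists_even_primitive`: `H x = ∫ t in (0:ℝ)..x, h t`; `HasDerivAt` by `intervalIntegral.integral_hasDerivAt_right` / `Continuous.deriv_integral`;
smooth by `contDiff_infty_iff_deriv` (`deriv H = h`); even: `x ↦ H (-x) - H x` has derivative `-h(-x) - h x = 0` and vanishes at `0`
(`is_const_of_deriv_eq_zero`); periodic: `x ↦ H (x + a) - H x` has derivative `0`, and at `x = -a/2` it is `H (a/2) - H (-a/2) = 0`.
`exists_weight`: `f = (s'² + s² C) / P` is continuous and `a`-periodic, hence bounded by some `B` (`Icc 0 a` compact + periodicity,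
`Function.Periodic.exists_mem_Ico₀`); take `k` with `B < ((2k+1) 2π/b)²` (Archimedean: `(2k+1) 2π/b ≥ k * (2π/b)`, choose `k ≥ (B + 1) b / (2π)` and use `t ≥ B + 1 ≥ 1 → t² > B`). -/

namespace Vale.Agent.Lib.P205.Klein

open Real
open scoped ContDiff

theorem hopf2_contDiff {ρ₁ ρ₂ ψ₁ ψ₂ : ℝ → ℝ} {κ₁ κ₂ : ℝ} (h₁ : ContDiff ℝ ∞ ρ₁)
    (h₂ : ContDiff ℝ ∞ ρ₂) (k₁ : ContDiff ℝ ∞ ψ₁) (k₂ : ContDiff ℝ ∞ ψ₂) :
    ContDiff ℝ ∞ (hopf2 ρ₁ ρ₂ ψ₁ ψ₂ κ₁ κ₂) := by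
  rw [contDiff_euclidean]
  have a1 : ContDiff ℝ ∞ (fun q : ℝ × ℝ => ρ₁ q.1) := h₁.comp contDiff_fst
  have a2 : ContDiff ℝ ∞ (fun q : ℝ × ℝ => ρ₂ q.1) := h₂.comp contDiff_fst
  have b1 : ContDiff ℝ ∞ (fun q : ℝ × ℝ => κ₁ * q.2 + ψ₁ q.1) :=
    (contDiff_const.mul contDiff_snd).add (k₁.comp contDiff_fst)
  have b2 : ContDiff ℝ ∞ (fun q : ℝ × ℝ => κ₂ * q.2 + ψ₂ q.1) :=
    (contDiff_const.mul contDiff_snd).add (k₂.comp contDiff_fst)
  intro i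
  fin_cases i
  · exact a1.mul b1.cos
  · exact a1.mul b1.sin
  · exact a2.mul b2.cos
  · exact a2.mul b2.sin

theorem hopf2_pullback {ρ₁ ρ₂ ψ₁ ψ₂ : ℝ → ℝ} {κ₁ κ₂ : ℝ} {p : ℝ × ℝ} {r₁ r₂ q₁ q₂ : ℝ}
    (h₁ : HasDerivAt ρ₁ r₁ p.1) (h₂ : HasDerivAt ρ₂ r₂ p.1)
    (k₁ : HasDerivAt ψ₁ q₁ p.1) (k₂ : HasDerivAt ψ₂ q₂ p.1) (v w : ℝ × ℝ) :
    inner ℝ (fderiv ℝ (hopf2 ρ₁ ρ₂ ψ₁ ψ₂ κ₁ κ₂) p v) (fderiv ℝ (hopf2 ρ₁ ρ₂ ψ₁ ψ₂ κ₁ κ₂) p w)
      = (r₁ ^ 2 + r₂ ^ 2 + (ρ₁ p.1 * q₁) ^ 2 + (ρ₂ p.1 * q₂) ^ 2) * v.1 * w.1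
        + (κ₁ * (ρ₁ p.1) ^ 2 * q₁ + κ₂ * (ρ₂ p.1) ^ 2 * q₂) * (v.1 * w.2 + v.2 * w.1)
        + (κ₁ ^ 2 * (ρ₁ p.1) ^ 2 + κ₂ ^ 2 * (ρ₂ p.1) ^ 2) * v.2 * w.2 := by
  have a1 : HasFDerivAt (fun q : ℝ × ℝ => ρ₁ q.1) (r₁ • ContinuousLinearMap.fst ℝ ℝ ℝ) p :=
    h₁.comp_hasFDerivAt p hasFDerivAt_fst
  have a2 : HasFDerivAt (fun q : ℝ × ℝ => ρ₂ q.1) (r₂ • ContinuousLinearMap.fst ℝ ℝ ℝ) p :=
    h₂.comp_hasFDerivAt p hasFDerivAt_fst
  have b1' : HasFDerivAt (fun q : ℝ × ℝ => ψ₁ q.1) (q₁ • ContinuousLinearMap.fst ℝ ℝ ℝ) p :=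
    k₁.comp_hasFDerivAt p hasFDerivAt_fst
  have b2' : HasFDerivAt (fun q : ℝ × ℝ => ψ₂ q.1) (q₂ • ContinuousLinearMap.fst ℝ ℝ ℝ) p :=
    k₂.comp_hasFDerivAt p hasFDerivAt_fst
  have b1 : HasFDerivAt (fun q : ℝ × ℝ => κ₁ * q.2 + ψ₁ q.1)
      (κ₁ • ContinuousLinearMap.snd ℝ ℝ ℝ + q₁ • ContinuousLinearMap.fst ℝ ℝ ℝ) p :=
    (hasFDerivAt_snd.const_mul κ₁).add b1'
  have b2 : HasFDerivAt (fun q : ℝ × ℝ => κ₂ * q.2 + ψ₂ q.1)
      (κ₂ • ContinuousLinearMap.snd ℝ ℝ ℝ + q₂ • ContinuousLinearMap.fst ℝ ℝ ℝ) p :=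
    (hasFDerivAt_snd.const_mul κ₂).add b2'
  have c0 := a1.mul b1.cos
  have c1 := a1.mul b1.sin
  have c2 := a2.mul b2.cos
  have c3 := a2.mul b2.sin
  rw [Vale.Agent.Lib.P205.inner_fderiv_of_components (F := hopf2 ρ₁ ρ₂ ψ₁ ψ₂ κ₁ κ₂) (p := p)
    (L := ![_, _, _, _]) (fun i => by
      fin_cases i
      · exact c0
      · exact c1
      · exact c2
      · exact c3) v w]
  simp only [Fin.sum_univ_four]
  simp
  have hs := sin_sq_add_cos_sq (κ₁ * p.2 + ψ₁ p.1)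
  have hs' := sin_sq_add_cos_sq (κ₂ * p.2 + ψ₂ p.1)
  linear_combination ((ρ₁ p.1) ^ 2 * (κ₁ * v.2 + q₁ * v.1) * (κ₁ * w.2 + q₁ * w.1)
    + r₁ ^ 2 * v.1 * w.1) * hs + ((ρ₂ p.1) ^ 2 * (κ₂ * v.2 + q₂ * v.1) * (κ₂ * w.2 + q₂ * w.1)
    + r₂ ^ 2 * v.1 * w.1) * hs'

theorem exists_even_primitive (a : ℝ) (h : ℝ → ℝ) (hh : ContDiff ℝ ∞ h)
    (ho : ∀ x, h (-x) = - h x) (hp : ∀ x, h (x + a) = h x) :
    ∃ H : ℝ → ℝ, ContDiff ℝ ∞ H ∧ (∀ x, HasDerivAt H (h x) x) ∧ (∀ x, H (-x) = H x) ∧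
      ∀ x, H (x + a) = H x := by
  have hc : Continuous h := hh.continuous
  set H : ℝ → ℝ := fun x => ∫ t in (0:ℝ)..x, h t with hH
  have hd : ∀ x, HasDerivAt H (h x) x := by
    intro x
    exact intervalIntegral.integral_hasDerivAt_right (hc.intervalIntegrable _ _)
      (hc.stronglyMeasurableAtFilter _ _) hc.continuousAt
  have hderiv : deriv H = h := funext fun x => (hd x).deriv
  have hsm : ContDiff ℝ ∞ H := by
    rw [contDiff_infty_iff_deriv]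
    refine ⟨fun x => (hd x).differentiableAt, ?_⟩
    rw [hderiv]
    exact hh
  have heven : ∀ x, H (-x) = H x := by
    have hd2 : ∀ x, HasDerivAt (fun x => H (-x) - H x) 0 x := by
      intro x
      have h1 : HasDerivAt (fun x => H (-x)) (h (-x) * (-1)) x :=
        (hd (-x)).comp x (hasDerivAt_neg x)
      have h2 := h1.sub (hd x)
      have e : h (-x) * (-1) - h x = 0 := by rw [ho]; ring
      rw [e] at h2
      exact h2
    have hconst := is_const_of_deriv_eq_zero (f := fun x => H (-x) - H x)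
      (fun x => (hd2 x).differentiableAt) (fun x => (hd2 x).deriv)
    intro x
    have := hconst x 0
    simp only [neg_zero, sub_self] at this
    linarith
  refine ⟨H, hsm, hd, heven, ?_⟩
  have hd3 : ∀ x, HasDerivAt (fun x => H (x + a) - H x) 0 x := by
    intro x
    have h1 : HasDerivAt (fun x => H (x + a)) (h (x + a) * 1) x :=
      HasDerivAt.comp (h₂ := H) (h := fun x => x + a) x (hd (x + a))
        ((hasDerivAt_id' x).add_const a)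
    have h2 := h1.sub (hd x)
    have e : h (x + a) * 1 - h x = 0 := by rw [hp]; ring
    rw [e] at h2
    exact h2
  have hconst := is_const_of_deriv_eq_zero (f := fun x => H (x + a) - H x)
    (fun x => (hd3 x).differentiableAt) (fun x => (hd3 x).deriv)
  intro x
  have h1 : H (x + a) - H x = H (-a / 2 + a) - H (-a / 2) := hconst x (-a / 2)
  have e1 : -a / 2 + a = -(-a / 2) := by ring
  rw [e1, heven] at h1
  linarith

theorem exists_weight (a b : ℝ) (ha : 0 < a) (hb : 0 < b) (s P : ℝ → ℝ) (hs : ContDiff ℝ ∞ s)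
    (hP : ContDiff ℝ ∞ P) (hPpos : ∀ x, 0 < P x) (hsp : ∀ x, s (x + a) = s x)
    (hPp : ∀ x, P (x + a) = P x) (C : ℝ) (hC : 0 ≤ C) :
    ∃ k : ℕ, ∀ x, 1 / ((2 * (k : ℝ) + 1) * (2 * π / b)) ^ 2 * (deriv s x ^ 2 + s x ^ 2 * C) < P x := by
  have hds : Continuous (deriv s) := hs.continuous_deriv (by simp)
  have hdp : ∀ x, deriv s (x + a) = deriv s x := by
    intro x
    have h1 : (fun y => s (y + a)) = s := funext hsp
    have h2 : deriv (fun y => s (y + a)) x = deriv s (x + a) := deriv_comp_add_const s a x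
    rw [← h2, h1]
  set f : ℝ → ℝ := fun x => (deriv s x ^ 2 + s x ^ 2 * C) / P x with hf
  have hfc : Continuous f := by
    apply Continuous.div
    · exact (hds.pow 2).add ((hs.continuous.pow 2).mul continuous_const)
    · exact hP.continuous
    · intro x
      exact (hPpos x).ne'
  have hfp : Function.Periodic f a := by
    intro x
    simp only [hf, hdp, hsp, hPp]
  obtain ⟨B, hB⟩ := isCompact_Icc.exists_bound_of_continuousOn (s := Set.Icc 0 a) hfc.continuousOn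
  have hBall : ∀ x, f x ≤ B := by
    intro x
    obtain ⟨y, hy, hxy⟩ := hfp.exists_mem_Ico₀ ha x
    rw [hxy]
    exact le_trans (le_abs_self _) (hB y ⟨hy.1, hy.2.le⟩)
  have hB0 : 0 ≤ B := le_trans (norm_nonneg _) (hB 0 ⟨le_refl _, ha.le⟩)
  have hc : 0 < 2 * π / b := by positivity
  obtain ⟨k, hk⟩ := exists_nat_gt ((B + 1) / (2 * π / b))
  refine ⟨k, fun x => ?_⟩
  have hk0 : (0 : ℝ) ≤ (k : ℝ) := Nat.cast_nonneg k
  have hT : B + 1 < (2 * (k : ℝ) + 1) * (2 * π / b) := by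
    rw [div_lt_iff₀ hc] at hk
    nlinarith
  set T := (2 * (k : ℝ) + 1) * (2 * π / b) with hTdef
  have hT2 : B < T ^ 2 := by nlinarith
  have hTpos : 0 < T ^ 2 := by nlinarith
  rw [div_mul_eq_mul_div, one_mul, div_lt_iff₀ hTpos]
  have h1 : deriv s x ^ 2 + s x ^ 2 * C = f x * P x := by
    simp only [hf]
    field_simp [(hPpos x).ne']
  rw [h1]
  have h2 := hBall x
  have h3 := hPpos x
  nlinarith

end Vale.Agent.Lib.P205.Klein
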