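import Mathlib
import Vale.Agent.Lib.P205.Klein.Defs
import Vale.Agent.Lib.P205.Klein.Core
import Vale.Agent.Lib.P205.Klein.Parts2

/-! P205 / Klein: final assembly. -/

namespace Vale.Agent.Lib.P205.Klein

open Real
open scoped ContDiff

private theorem alg_E (X Y κ₁ κ₂ s c z μ l P : ℝ) (h₁ : κ₁ ≠ 0) (h₂ : κ₂ ≠ 0)
    (hcz : c ^ 2 + z ^ 2 = 1)
    (hcore : 1 / κ₁ ^ 2 * X ^ 2 + 1 / κ₂ ^ 2 * Y ^ 2 + s ^ 2 * l ^ 2 * (z ^ 2 * c ^ 2) = P) :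
    (X / κ₁) ^ 2 + (Y / κ₂) ^ 2 + (s * c / κ₁ * (κ₁ * (μ - z ^ 2 * l))) ^ 2
      + (s * z / κ₂ * (κ₂ * (μ + c ^ 2 * l))) ^ 2 = P + s ^ 2 * μ ^ 2 := by
  have e1 : s * c / κ₁ * (κ₁ * (μ - z ^ 2 * l)) = s * c * (μ - z ^ 2 * l) := by field_simp
  have e2 : s * z / κ₂ * (κ₂ * (μ + c ^ 2 * l)) = s * z * (μ + c ^ 2 * l) := by field_simp
  rw [e1, e2]
  linear_combination hcore + s ^ 2 * (μ ^ 2 + l ^ 2 * z ^ 2 * c ^ 2) * hcz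

private theorem alg_M (κ₁ κ₂ s c z μ l : ℝ) (h₁ : κ₁ ≠ 0) (h₂ : κ₂ ≠ 0)
    (hcz : c ^ 2 + z ^ 2 = 1) :
    κ₁ * (s * c / κ₁) ^ 2 * (κ₁ * (μ - z ^ 2 * l)) + κ₂ * (s * z / κ₂) ^ 2 * (κ₂ * (μ + c ^ 2 * l))
      = s ^ 2 * μ := by
  have e1 : κ₁ * (s * c / κ₁) ^ 2 * (κ₁ * (μ - z ^ 2 * l)) = s ^ 2 * c ^ 2 * (μ - z ^ 2 * l) := by
    field_simp
  have e2 : κ₂ * (s * z / κ₂) ^ 2 * (κ₂ * (μ + c ^ 2 * l)) = s ^ 2 * z ^ 2 * (μ + c ^ 2 * l) := by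
    field_simp
  rw [e1, e2]
  linear_combination s ^ 2 * μ * hcz

private theorem alg_G (κ₁ κ₂ s c z : ℝ) (h₁ : κ₁ ≠ 0) (h₂ : κ₂ ≠ 0) (hcz : c ^ 2 + z ^ 2 = 1) :
    κ₁ ^ 2 * (s * c / κ₁) ^ 2 + κ₂ ^ 2 * (s * z / κ₂) ^ 2 = s ^ 2 := by
  have e1 : κ₁ ^ 2 * (s * c / κ₁) ^ 2 = s ^ 2 * c ^ 2 := by field_simp
  have e2 : κ₂ ^ 2 * (s * z / κ₂) ^ 2 = s ^ 2 * z ^ 2 := by field_simp
  rw [e1, e2]
  linear_combination s ^ 2 * hcz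

theorem klein_main (a b : ℝ) (ha : 0 < a) (hb : 0 < b) (E M G : ℝ → ℝ)
    (hE : ContDiff ℝ ∞ E) (hM : ContDiff ℝ ∞ M) (hG : ContDiff ℝ ∞ G)
    (hGpos : ∀ x, 0 < G x) (hdet : ∀ x, 0 < E x * G x - M x ^ 2)
    (hEper : ∀ x, E (x + a) = E x) (hMper : ∀ x, M (x + a) = M x) (hGper : ∀ x, G (x + a) = G x)
    (hEe : ∀ x, E (-x) = E x) (hMo : ∀ x, M (-x) = - M x) (hGe : ∀ x, G (-x) = G x) :
    ∃ F : ℝ × ℝ → EuclideanSpace ℝ (Fin 4), ContDiff ℝ ∞ F ∧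
      (∀ p : ℝ × ℝ, F (p.1 + a, p.2) = F p) ∧ (∀ p : ℝ × ℝ, F (p.1, p.2 + b) = F p) ∧
      (∀ p : ℝ × ℝ, F (-p.1, p.2 + b / 2) = F p) ∧
      ∀ (p v w : ℝ × ℝ), inner ℝ (fderiv ℝ F p v) (fderiv ℝ F p w)
        = E p.1 * v.1 * w.1 + M p.1 * (v.1 * w.2 + v.2 * w.1) + G p.1 * v.2 * w.2 := by
  obtain ⟨s, hsdef⟩ : ∃ s : ℝ → ℝ, s = fun x => sqrt (G x) := ⟨_, rfl⟩
  obtain ⟨P, hPdef⟩ : ∃ P : ℝ → ℝ, P = fun x => (E x * G x - M x ^ 2) / G x := ⟨_, rfl⟩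
  obtain ⟨μ, hμdef⟩ : ∃ μ : ℝ → ℝ, μ = fun x => M x / G x := ⟨_, rfl⟩
  have hs : ContDiff ℝ ∞ s := by
    rw [hsdef]
    exact hG.sqrt (fun x => (hGpos x).ne')
  have hP : ContDiff ℝ ∞ P := by
    rw [hPdef]
    exact ((hE.mul hG).sub (hM.pow 2)).div hG (fun x => (hGpos x).ne')
  have hμ : ContDiff ℝ ∞ μ := by
    rw [hμdef]
    exact hM.div hG (fun x => (hGpos x).ne')
  have hspos : ∀ x, 0 < s x := fun x => by
    rw [hsdef]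
    exact sqrt_pos.mpr (hGpos x)
  have hs2 : ∀ x, s x ^ 2 = G x := fun x => by
    rw [hsdef]
    exact sq_sqrt (hGpos x).le
  have hPpos : ∀ x, 0 < P x := fun x => by
    rw [hPdef]
    exact div_pos (hdet x) (hGpos x)
  have hse : ∀ x, s (-x) = s x := fun x => by simp only [hsdef, hGe]
  have hsp : ∀ x, s (x + a) = s x := fun x => by simp only [hsdef, hGper]
  have hPe : ∀ x, P (-x) = P x := fun x => by simp only [hPdef, hGe, hEe, hMo, neg_sq]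
  have hPp : ∀ x, P (x + a) = P x := fun x => by simp only [hPdef, hGper, hEper, hMper]
  have hμo : ∀ x, μ (-x) = - μ x := fun x => by simp only [hμdef, hGe, hMo, neg_div]
  have hμp : ∀ x, μ (x + a) = μ x := fun x => by simp only [hμdef, hGper, hMper]
  obtain ⟨C, hC, hCmid⟩ := exists_mid_bound a ha
  obtain ⟨k, hk⟩ := exists_weight a b ha hb s P hs hP hPpos hsp hPp C hC
  obtain ⟨κ₁, hκ₁⟩ : ∃ κ₁ : ℝ, κ₁ = (2 * (k : ℝ) + 2) * (2 * π / b) := ⟨_, rfl⟩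
  obtain ⟨κ₂, hκ₂⟩ : ∃ κ₂ : ℝ, κ₂ = (2 * (k : ℝ) + 1) * (2 * π / b) := ⟨_, rfl⟩
  have hω : 0 < 2 * π / b := by positivity
  have hκ₂pos : 0 < κ₂ := by rw [hκ₂]; positivity
  have hκ₁₂ : κ₂ ≤ κ₁ := by
    rw [hκ₁, hκ₂]
    apply mul_le_mul_of_nonneg_right _ hω.le
    linarith
  have hκ₁pos : 0 < κ₁ := lt_of_lt_of_le hκ₂pos hκ₁₂
  have hele : 1 / κ₁ ^ 2 ≤ 1 / κ₂ ^ 2 := by
    apply one_div_le_one_div_of_le (by positivity)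
    exact pow_le_pow_left₀ hκ₂pos.le hκ₁₂ 2
  rw [← hκ₂] at hk
  obtain ⟨φ, l, hφ, hl, hφo, hφp, hlo, hlp, hcore⟩ := core a ha s P hs hP hspos hse hPe hsp hPp
    (1 / κ₁ ^ 2) (1 / κ₂ ^ 2) (1 / κ₂ ^ 2) C (by positivity) (by positivity) hele le_rfl hC hCmid hk
  have hcos : ContDiff ℝ ∞ (fun x => cos (φ x)) := contDiff_cos.comp hφ
  have hsin : ContDiff ℝ ∞ (fun x => sin (φ x)) := contDiff_sin.comp hφ
  obtain ⟨ψ₁, sψ₁, dψ₁, eψ₁, pψ₁⟩ := exists_even_primitive a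
    (fun x => κ₁ * (μ x - sin (φ x) ^ 2 * l x))
    (contDiff_const.mul (hμ.sub ((hsin.pow 2).mul hl)))
    (fun x => by simp only [hμo, hφo, hlo, sin_neg, neg_sq]; ring)
    (fun x => by simp only [hμp, hφp, hlp])
  obtain ⟨ψ₂, sψ₂, dψ₂, eψ₂, pψ₂⟩ := exists_even_primitive a
    (fun x => κ₂ * (μ x + cos (φ x) ^ 2 * l x))
    (contDiff_const.mul (hμ.add ((hcos.pow 2).mul hl)))
    (fun x => by simp only [hμo, hφo, hlo, cos_neg]; ring)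
    (fun x => by simp only [hμp, hφp, hlp])
  refine ⟨hopf2 (fun x => s x * cos (φ x) / κ₁) (fun x => s x * sin (φ x) / κ₂) ψ₁ ψ₂ κ₁ κ₂,
    hopf2_contDiff ((hs.mul hcos).div_const _) ((hs.mul hsin).div_const _) sψ₁ sψ₂, ?_, ?_, ?_, ?_⟩
  · intro p
    simp only [hopf2, hsp, hφp, pψ₁, pψ₂]
  · intro p
    have h1 : κ₁ * (p.2 + b) + ψ₁ p.1 = κ₁ * p.2 + ψ₁ p.1 + ((2 * k + 2 : ℕ) : ℝ) * (2 * π) := by
      rw [hκ₁]
      push_cast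
      field_simp
      ring
    have h2 : κ₂ * (p.2 + b) + ψ₂ p.1 = κ₂ * p.2 + ψ₂ p.1 + ((2 * k + 1 : ℕ) : ℝ) * (2 * π) := by
      rw [hκ₂]
      push_cast
      field_simp
      ring
    simp only [hopf2, h1, h2, cos_add_nat_mul_two_pi, sin_add_nat_mul_two_pi]
  · intro p
    have h1 : κ₁ * (p.2 + b / 2) + ψ₁ p.1 = κ₁ * p.2 + ψ₁ p.1 + ((k + 1 : ℕ) : ℝ) * (2 * π) := by
      rw [hκ₁]
      push_cast
      field_simp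
      ring
    have h2 : κ₂ * (p.2 + b / 2) + ψ₂ p.1
        = κ₂ * p.2 + ψ₂ p.1 + π + ((k : ℕ) : ℝ) * (2 * π) := by
      rw [hκ₂]
      field_simp
      ring
    simp only [hopf2, hse, hφo, eψ₁, eψ₂, h1, h2, cos_add_nat_mul_two_pi, sin_add_nat_mul_two_pi,
      cos_neg, sin_neg, cos_add_pi, sin_add_pi]
    congr 1
    ext i
    fin_cases i <;> simp <;> ring
  · intro p v w
    have ds : HasDerivAt s (deriv s p.1) p.1 :=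
      (hs.differentiable (by simp)).differentiableAt.hasDerivAt
    have dφ : HasDerivAt φ (deriv φ p.1) p.1 :=
      (hφ.differentiable (by simp)).differentiableAt.hasDerivAt
    have d1 : HasDerivAt (fun x => s x * cos (φ x) / κ₁)
        ((deriv s p.1 * cos (φ p.1) - s p.1 * deriv φ p.1 * sin (φ p.1)) / κ₁) p.1 := by
      have h9 := (ds.mul dφ.cos).div_const κ₁
      have h10 : (deriv s p.1 * cos (φ p.1) + s p.1 * (-sin (φ p.1) * deriv φ p.1)) / κ₁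
          = (deriv s p.1 * cos (φ p.1) - s p.1 * deriv φ p.1 * sin (φ p.1)) / κ₁ := by ring
      rw [h10] at h9
      exact h9
    have d2 : HasDerivAt (fun x => s x * sin (φ x) / κ₂)
        ((deriv s p.1 * sin (φ p.1) + s p.1 * deriv φ p.1 * cos (φ p.1)) / κ₂) p.1 := by
      have h9 := (ds.mul dφ.sin).div_const κ₂
      have h10 : (deriv s p.1 * sin (φ p.1) + s p.1 * (cos (φ p.1) * deriv φ p.1)) / κ₂
          = (deriv s p.1 * sin (φ p.1) + s p.1 * deriv φ p.1 * cos (φ p.1)) / κ₂ := by ring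
      rw [h10] at h9
      exact h9
    rw [hopf2_pullback d1 d2 (dψ₁ p.1) (dψ₂ p.1) v w]
    have hcz : cos (φ p.1) ^ 2 + sin (φ p.1) ^ 2 = 1 := cos_sq_add_sin_sq _
    have hc := hcore p.1
    unfold Nq at hc
    rw [alg_E _ _ κ₁ κ₂ (s p.1) _ _ (μ p.1) (l p.1) (P p.1) hκ₁pos.ne' hκ₂pos.ne' hcz hc,
      alg_M κ₁ κ₂ (s p.1) _ _ (μ p.1) (l p.1) hκ₁pos.ne' hκ₂pos.ne' hcz,
      alg_G κ₁ κ₂ (s p.1) _ _ hκ₁pos.ne' hκ₂pos.ne' hcz, hs2]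
    have hG0 := (hGpos p.1).ne'
    have hPE : P p.1 + G p.1 * μ p.1 ^ 2 = E p.1 := by
      simp only [hPdef, hμdef]
      field_simp
      ring
    have hMM : G p.1 * μ p.1 = M p.1 := by
      simp only [hμdef]
      field_simp
    rw [hPE, hMM]

end Vale.Agent.Lib.P205.Klein
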